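import Mathlib

/-!
# P125, Theorem Sigma: basics on finite reversible chains

Finite-sum calculus for a stationary reversible chain.
-/

namespace Vale.Agent.Lib.P125

open Finset

/-- A finite stationary reversible Markov chain. -/
structure RevChain (S : Type*) [Fintype S] [DecidableEq S] where
  pi : S → ℝ
  P : Matrix S S ℝ
  pi_nonneg : ∀ x, 0 ≤ pi x
  pi_sum : ∑ x, pi x = 1
  P_nonneg : ∀ x y, 0 ≤ P x y
  P_sum : ∀ x, ∑ y, P x y = 1
  rev : ∀ x y, pi x * P x y = pi y * P y x

namespace RevChain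

variable {S : Type*} [Fintype S] [DecidableEq S] (C : RevChain S)

/-- The `l`-step kernel. -/
def Q (l : ℕ) : Matrix S S ℝ := C.P ^ l

lemma Q_zero_apply (x y : S) : C.Q 0 x y = if x = y then 1 else 0 := by
  simp [Q, Matrix.one_apply]

lemma Q_succ (l : ℕ) (x y : S) : C.Q (l + 1) x y = ∑ a, C.P x a * C.Q l a y := by
  simp only [Q, pow_succ', Matrix.mul_apply]

lemma Q_succ' (l : ℕ) (x y : S) : C.Q (l + 1) x y = ∑ a, C.Q l x a * C.P a y := by
  simp only [Q, pow_succ, Matrix.mul_apply]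

lemma Q_nonneg (l : ℕ) (x y : S) : 0 ≤ C.Q l x y := by
  induction l generalizing x with
  | zero =>
    rw [Q_zero_apply]
    split_ifs <;> norm_num
  | succ l ih =>
    rw [Q_succ]
    exact Finset.sum_nonneg fun a _ => mul_nonneg (C.P_nonneg _ _) (ih _)

lemma Q_sum (l : ℕ) (x : S) : ∑ y, C.Q l x y = 1 := by
  induction l generalizing x with
  | zero =>
    simp [Q_zero_apply]
  | succ l ih =>
    simp only [Q_succ]
    rw [Finset.sum_comm]
    simp only [← Finset.mul_sum, ih, mul_one, C.P_sum]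

lemma Q_rev (l : ℕ) (x y : S) : C.pi x * C.Q l x y = C.pi y * C.Q l y x := by
  induction l generalizing x y with
  | zero =>
    simp only [Q_zero_apply]
    by_cases h : x = y
    · subst h; rfl
    · have h' : y ≠ x := fun e => h e.symm
      simp [h, h']
  | succ l ih =>
    rw [Q_succ, Q_succ', Finset.mul_sum, Finset.mul_sum]
    refine Finset.sum_congr rfl fun a _ => ?_
    have h1 := C.rev x a
    have h2 := ih a y
    calc C.pi x * (C.P x a * C.Q l a y) = (C.pi x * C.P x a) * C.Q l a y := by ring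
      _ = C.P a x * (C.pi a * C.Q l a y) := by rw [h1]; ring
      _ = C.P a x * (C.pi y * C.Q l y a) := by rw [h2]
      _ = C.pi y * (C.Q l y a * C.P a x) := by ring

lemma pi_Q (l : ℕ) (y : S) : ∑ x, C.pi x * C.Q l x y = C.pi y := by
  simp only [C.Q_rev l _ y]
  rw [← Finset.mul_sum, C.Q_sum, mul_one]

lemma pi_P (y : S) : ∑ x, C.pi x * C.P x y = C.pi y := by
  simp only [C.rev _ y]
  rw [← Finset.mul_sum, C.P_sum, mul_one]

/-- One averaging step. -/
def step (w : S → ℝ) (x : S) : ℝ := ∑ y, C.P x y * w y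

/-- `l` averaging steps. -/
def op (l : ℕ) (w : S → ℝ) (x : S) : ℝ := ∑ y, C.Q l x y * w y

lemma op_zero (w : S → ℝ) (x : S) : C.op 0 w x = w x := by
  simp [op, Q_zero_apply]

lemma op_succ (l : ℕ) (w : S → ℝ) (x : S) : C.op (l + 1) w x = C.step (C.op l w) x := by
  simp only [op, step, Q_succ, Finset.mul_sum, Finset.sum_mul]
  rw [Finset.sum_comm]
  refine Finset.sum_congr rfl fun a _ => Finset.sum_congr rfl fun y _ => ?_
  ring

lemma op_succ' (l : ℕ) (w : S → ℝ) (x : S) : C.op (l + 1) w x = C.op l (C.step w) x := by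
  simp only [op, step, Q_succ', Finset.mul_sum, Finset.sum_mul]
  rw [Finset.sum_comm]
  refine Finset.sum_congr rfl fun a _ => Finset.sum_congr rfl fun y _ => ?_
  ring

lemma op_congr (l : ℕ) {v w : S → ℝ} (h : ∀ x, v x = w x) (x : S) : C.op l v x = C.op l w x := by
  have : v = w := funext h
  rw [this]

lemma op_sub (l : ℕ) (v w : S → ℝ) (x : S) :
    C.op l (fun y => v y - w y) x = C.op l v x - C.op l w x := by
  simp only [op, mul_sub, Finset.sum_sub_distrib]

lemma op_add (l : ℕ) (v w : S → ℝ) (x : S) :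
    C.op l (fun y => v y + w y) x = C.op l v x + C.op l w x := by
  simp only [op, mul_add, Finset.sum_add_distrib]

lemma op_const_mul (l : ℕ) (c : ℝ) (w : S → ℝ) (x : S) :
    C.op l (fun y => c * w y) x = c * C.op l w x := by
  simp only [op, Finset.mul_sum]
  refine Finset.sum_congr rfl fun a _ => ?_
  ring

lemma op_const (l : ℕ) (c : ℝ) (x : S) : C.op l (fun _ => c) x = c := by
  simp only [op, ← Finset.sum_mul, C.Q_sum, one_mul]

lemma op_finset_sum {ι : Type*} (s : Finset ι) (l : ℕ) (w : ι → S → ℝ) (x : S) :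
    C.op l (fun y => ∑ i ∈ s, w i y) x = ∑ i ∈ s, C.op l (w i) x := by
  simp only [op, Finset.mul_sum]
  rw [Finset.sum_comm]

lemma op_mono (l : ℕ) {v w : S → ℝ} (h : ∀ x, v x ≤ w x) (x : S) : C.op l v x ≤ C.op l w x :=
  Finset.sum_le_sum fun y _ => mul_le_mul_of_nonneg_left (h y) (C.Q_nonneg l x y)

lemma op_nonneg (l : ℕ) {w : S → ℝ} (h : ∀ x, 0 ≤ w x) (x : S) : 0 ≤ C.op l w x :=
  Finset.sum_nonneg fun y _ => mul_nonneg (C.Q_nonneg l x y) (h y)

lemma abs_op_le (l : ℕ) (w : S → ℝ) (x : S) : |C.op l w x| ≤ C.op l (fun y => |w y|) x := by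
  unfold op
  refine (Finset.abs_sum_le_sum_abs _ _).trans (le_of_eq ?_)
  refine Finset.sum_congr rfl fun y _ => ?_
  rw [abs_mul, abs_of_nonneg (C.Q_nonneg l x y)]

lemma abs_op_le_of_bound (l : ℕ) {w : S → ℝ} {B : ℝ} (h : ∀ x, |w x| ≤ B) (x : S) :
    |C.op l w x| ≤ B := by
  refine (C.abs_op_le l w x).trans ?_
  have := C.op_mono l h x
  rwa [C.op_const] at this

lemma pi_op (l : ℕ) (w : S → ℝ) : ∑ x, C.pi x * C.op l w x = ∑ x, C.pi x * w x := by
  simp only [op, Finset.mul_sum]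
  rw [Finset.sum_comm]
  refine Finset.sum_congr rfl fun y _ => ?_
  have := C.pi_Q l y
  calc ∑ x, C.pi x * (C.Q l x y * w y) = (∑ x, C.pi x * C.Q l x y) * w y := by
        rw [Finset.sum_mul]
        exact Finset.sum_congr rfl fun a _ => by ring
    _ = C.pi y * w y := by rw [this]

lemma op_adjoint (l : ℕ) (φ ψ : S → ℝ) :
    ∑ x, C.pi x * φ x * C.op l ψ x = ∑ x, C.pi x * C.op l φ x * ψ x := by
  simp only [op, Finset.mul_sum, Finset.sum_mul]
  rw [Finset.sum_comm]
  refine Finset.sum_congr rfl fun x _ => Finset.sum_congr rfl fun y _ => ?_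
  have := C.Q_rev l y x
  calc C.pi y * φ y * (C.Q l y x * ψ x) = (C.pi y * C.Q l y x) * φ y * ψ x := by ring
    _ = (C.pi x * C.Q l x y) * φ y * ψ x := by rw [this]
    _ = C.pi x * (C.Q l x y * φ y) * ψ x := by ring

lemma step_eq_op_one (w : S → ℝ) (x : S) : C.step w x = C.op 1 w x := by
  have := C.op_succ 0 w x
  rw [show (0 : ℕ) + 1 = 1 from rfl] at this
  rw [this]
  unfold step
  exact Finset.sum_congr rfl fun y _ => by rw [C.op_zero]

lemma step_sub (v w : S → ℝ) (x : S) :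
    C.step (fun y => v y - w y) x = C.step v x - C.step w x := by
  simp only [step, mul_sub, Finset.sum_sub_distrib]

lemma step_congr {v w : S → ℝ} (h : ∀ x, v x = w x) (x : S) : C.step v x = C.step w x := by
  have : v = w := funext h
  rw [this]

lemma step_const (c : ℝ) (x : S) : C.step (fun _ => c) x = c := by
  simp only [step, ← Finset.sum_mul, C.P_sum, one_mul]

lemma step_mono {v w : S → ℝ} (h : ∀ x, v x ≤ w x) (x : S) : C.step v x ≤ C.step w x :=
  Finset.sum_le_sum fun y _ => mul_le_mul_of_nonneg_left (h y) (C.P_nonneg x y)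

lemma abs_step_le (w : S → ℝ) (x : S) : |C.step w x| ≤ C.step (fun y => |w y|) x := by
  unfold step
  refine (Finset.abs_sum_le_sum_abs _ _).trans (le_of_eq ?_)
  refine Finset.sum_congr rfl fun y _ => ?_
  rw [abs_mul, abs_of_nonneg (C.P_nonneg x y)]

lemma abs_step_le_of_bound {w : S → ℝ} {B : ℝ} (h : ∀ x, |w x| ≤ B) (x : S) :
    |C.step w x| ≤ B := by
  refine (C.abs_step_le w x).trans ?_
  have := C.step_mono h x
  rwa [C.step_const] at this

lemma pi_step (w : S → ℝ) : ∑ x, C.pi x * C.step w x = ∑ x, C.pi x * w x := by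
  simp only [step, Finset.mul_sum]
  rw [Finset.sum_comm]
  refine Finset.sum_congr rfl fun y _ => ?_
  have := C.pi_P y
  calc ∑ x, C.pi x * (C.P x y * w y) = (∑ x, C.pi x * C.P x y) * w y := by
        rw [Finset.sum_mul]
        exact Finset.sum_congr rfl fun a _ => by ring
    _ = C.pi y * w y := by rw [this]

/-- The Dirichlet-form identity. -/
lemma dirichlet (φ ψ : S → ℝ) :
    ∑ z, C.pi z * φ z * (ψ z - C.step ψ z)
      = (1 / 2) * ∑ a, ∑ b, C.pi a * C.P a b * ((φ b - φ a) * (ψ b - ψ a)) := by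
  -- expand the right side
  have h1 : ∑ a, ∑ b, C.pi a * C.P a b * (φ a * ψ a) = ∑ a, C.pi a * φ a * ψ a := by
    refine Finset.sum_congr rfl fun a _ => ?_
    calc ∑ b, C.pi a * C.P a b * (φ a * ψ a) = (∑ b, C.P a b) * (C.pi a * φ a * ψ a) := by
          rw [Finset.sum_mul]
          exact Finset.sum_congr rfl fun b _ => by ring
      _ = C.pi a * φ a * ψ a := by rw [C.P_sum, one_mul]
  have h2 : ∑ a, ∑ b, C.pi a * C.P a b * (φ b * ψ b) = ∑ a, C.pi a * φ a * ψ a := by
    rw [Finset.sum_comm]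
    refine Finset.sum_congr rfl fun b _ => ?_
    calc ∑ a, C.pi a * C.P a b * (φ b * ψ b) = (∑ a, C.pi a * C.P a b) * (φ b * ψ b) := by
          rw [Finset.sum_mul]
    _ = C.pi b * φ b * ψ b := by rw [C.pi_P]; ring
  have h3 : ∑ a, ∑ b, C.pi a * C.P a b * (φ a * ψ b) = ∑ a, C.pi a * φ a * C.step ψ a := by
    refine Finset.sum_congr rfl fun a _ => ?_
    simp only [step, Finset.mul_sum]
    exact Finset.sum_congr rfl fun b _ => by ring
  have h4 : ∑ a, ∑ b, C.pi a * C.P a b * (φ b * ψ a) = ∑ a, C.pi a * φ a * C.step ψ a := by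
    rw [Finset.sum_comm]
    refine Finset.sum_congr rfl fun b _ => ?_
    simp only [step, Finset.mul_sum]
    refine Finset.sum_congr rfl fun a _ => ?_
    have := C.rev a b
    calc C.pi a * C.P a b * (φ b * ψ a) = (C.pi a * C.P a b) * (φ b * ψ a) := rfl
      _ = (C.pi b * C.P b a) * (φ b * ψ a) := by rw [this]
      _ = C.pi b * φ b * (C.P b a * ψ a) := by ring
  have h5 : ∑ a, ∑ b, C.pi a * C.P a b * ((φ b - φ a) * (ψ b - ψ a))
      = ∑ a, ∑ b, C.pi a * C.P a b * (φ b * ψ b)
        - ∑ a, ∑ b, C.pi a * C.P a b * (φ b * ψ a)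
        - ∑ a, ∑ b, C.pi a * C.P a b * (φ a * ψ b)
        + ∑ a, ∑ b, C.pi a * C.P a b * (φ a * ψ a) := by
    simp only [← Finset.sum_sub_distrib, ← Finset.sum_add_distrib]
    refine Finset.sum_congr rfl fun a _ => Finset.sum_congr rfl fun b _ => ?_
    ring
  rw [h5, h1, h2, h3, h4]
  simp only [mul_sub, Finset.sum_sub_distrib]
  simp only [mul_assoc]
  ring

end RevChain

end Vale.Agent.Lib.P125
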