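import Vale.Agent.Lib.P125.KeyLemma

/-!
# P125, Theorem Sigma: the cubic variation lemma and the duality bound
-/

namespace Vale.Agent.Lib.P125

open Finset

/-- Pointwise step of the cubic variation lemma. -/
lemma cube_step (a b l : ℝ) (h : |a - b| ≤ l) :
    |a| ^ (3 : ℕ) ≤ |b| ^ (3 : ℕ) + (3 / 2) * (l * (a ^ (2 : ℕ) + b ^ (2 : ℕ))) := by
  have hl : 0 ≤ l := (abs_nonneg _).trans h
  have hx := abs_nonneg a
  have hy := abs_nonneg b
  have hd : |a| - |b| ≤ l := (abs_sub_abs_le_abs_sub a b).trans h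
  have ha2 : a ^ (2 : ℕ) = |a| ^ (2 : ℕ) := (sq_abs a).symm
  have hb2 : b ^ (2 : ℕ) = |b| ^ (2 : ℕ) := (sq_abs b).symm
  rw [ha2, hb2]
  set x := |a|
  set y := |b|
  by_cases hxy : x ≤ y
  · have h1 : x ^ (3 : ℕ) ≤ y ^ (3 : ℕ) := pow_le_pow_left₀ hx hxy 3
    have h2 : 0 ≤ (3 / 2) * (l * (x ^ (2 : ℕ) + y ^ (2 : ℕ))) := by positivity
    linarith
  · have hq : 0 ≤ x ^ (2 : ℕ) + x * y + y ^ (2 : ℕ) := by positivity
    have h1 : (x - y) * (x ^ (2 : ℕ) + x * y + y ^ (2 : ℕ))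
        ≤ l * (x ^ (2 : ℕ) + x * y + y ^ (2 : ℕ)) := mul_le_mul_of_nonneg_right hd hq
    have h2 : x ^ (2 : ℕ) + x * y + y ^ (2 : ℕ) ≤ (3 / 2) * (x ^ (2 : ℕ) + y ^ (2 : ℕ)) := by
      nlinarith [sq_nonneg (x - y)]
    have h3 : l * (x ^ (2 : ℕ) + x * y + y ^ (2 : ℕ))
        ≤ l * ((3 / 2) * (x ^ (2 : ℕ) + y ^ (2 : ℕ))) := mul_le_mul_of_nonneg_left h2 hl
    nlinarith

/-- Cubic variation lemma, anchored at the right end. -/
lemma cvm_end {n : ℕ} (D lam : ℕ → ℝ) (hend : D n = 0) (hinc : ∀ j < n, |D j - D (j + 1)| ≤ lam j)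
    {m : ℕ} (hm : m ≤ n) :
    |D m| ^ (3 : ℕ) ≤ (3 / 2) * ∑ j ∈ range n, lam j * (D j ^ (2 : ℕ) + D (j + 1) ^ (2 : ℕ)) := by
  have hnn : ∀ j < n, 0 ≤ lam j * (D j ^ (2 : ℕ) + D (j + 1) ^ (2 : ℕ)) := fun j hj =>
    mul_nonneg ((abs_nonneg _).trans (hinc j hj)) (by positivity)
  have key : ∀ d m, m + d = n → |D m| ^ (3 : ℕ)
      ≤ (3 / 2) * ∑ j ∈ Ico m n, lam j * (D j ^ (2 : ℕ) + D (j + 1) ^ (2 : ℕ)) := by
    intro d
    induction d with
    | zero =>
      intro m hm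
      have : m = n := by omega
      subst this
      simp [hend]
    | succ d ih =>
      intro m hm
      have hlt : m < n := by omega
      have h1 := ih (m + 1) (by omega)
      have h2 := cube_step (D m) (D (m + 1)) (lam m) (hinc m hlt)
      rw [Finset.sum_eq_sum_Ico_succ_bot hlt]
      linarith
  have h1 := key (n - m) m (by omega)
  refine h1.trans ?_
  refine mul_le_mul_of_nonneg_left ?_ (by norm_num)
  refine Finset.sum_le_sum_of_subset_of_nonneg ?_ ?_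
  · intro j hj
    simp only [Finset.mem_Ico, Finset.mem_range] at hj ⊢
    omega
  · intro j hj _
    exact hnn j (Finset.mem_range.mp hj)

/-- Cubic variation lemma, anchored at the left end, with the true increments as weights. -/
lemma cvm_start {n : ℕ} (Y : ℕ → ℝ) (hstart : Y 0 = 0) {m : ℕ} (hm : m ≤ n) :
    |Y m| ^ (3 : ℕ)
      ≤ (3 / 2) * ∑ j ∈ range n, |Y (j + 1) - Y j| * (Y j ^ (2 : ℕ) + Y (j + 1) ^ (2 : ℕ)) := by
  have hnn : ∀ j, 0 ≤ |Y (j + 1) - Y j| * (Y j ^ (2 : ℕ) + Y (j + 1) ^ (2 : ℕ)) := fun j =>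
    mul_nonneg (abs_nonneg _) (by positivity)
  have key : ∀ m, |Y m| ^ (3 : ℕ)
      ≤ (3 / 2) * ∑ j ∈ range m, |Y (j + 1) - Y j| * (Y j ^ (2 : ℕ) + Y (j + 1) ^ (2 : ℕ)) := by
    intro m
    induction m with
    | zero => simp [hstart]
    | succ m ih =>
      rw [Finset.sum_range_succ]
      have h2 := cube_step (Y (m + 1)) (Y m) (|Y (m + 1) - Y m|) le_rfl
      have e : Y (m + 1) ^ (2 : ℕ) + Y m ^ (2 : ℕ) = Y m ^ (2 : ℕ) + Y (m + 1) ^ (2 : ℕ) := by ring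
      rw [e] at h2
      linarith
  refine (key m).trans ?_
  refine mul_le_mul_of_nonneg_left ?_ (by norm_num)
  refine Finset.sum_le_sum_of_subset_of_nonneg ?_ ?_
  · intro j hj
    simp only [Finset.mem_range] at hj ⊢
    omega
  · intro j _ _
    exact hnn j

/-- At most one index contributes. -/
lemma sum_ite_succ_le (n k : ℕ) (F : ℕ → ℝ) (hF : ∀ j, 0 ≤ F j) :
    ∑ j ∈ range n, (if k = j + 1 then (1 : ℝ) else 0) * F j ≤ F (k - 1) := by
  cases k with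
  | zero =>
    simp [hF]
  | succ k =>
    simp only [add_left_inj, Nat.add_sub_cancel, ite_mul, one_mul, zero_mul]
    rw [Finset.sum_ite_eq]
    split_ifs
    · exact le_rfl
    · exact hF k

lemma sum_ite_succ_le' (n k : ℕ) (F : ℕ → ℝ) (hF : ∀ j, 0 ≤ F j) :
    ∑ j ∈ range n, (if k = j + 1 then (1 : ℝ) else 0) * F (j + 1) ≤ F k := by
  cases k with
  | zero =>
    simp [hF]
  | succ k =>
    simp only [add_left_inj, ite_mul, one_mul, zero_mul]
    rw [Finset.sum_ite_eq]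
    split_ifs
    · exact le_rfl
    · exact hF _

namespace RevChain

variable {S : Type*} [Fintype S] [DecidableEq S] (C : RevChain S)

section Dual

variable (kk : S → ℕ) (cc : S → ℝ)

/-- The threshold test functions. -/
noncomputable def G (j : ℕ) (y : S) : ℝ := if j < kk y then cc y else 0

/-- The edge gradient of the averaged threshold test function. -/
noncomputable def DD (R : ℕ) (a b : S) (j : ℕ) : ℝ :=
  C.A R (G kk cc j) b - C.A R (G kk cc j) a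

/-- The averaged law of the index `kk`. -/
noncomputable def Lam (R : ℕ) (x : S) (j : ℕ) : ℝ :=
  C.A R (fun y => if kk y = j then (1 : ℝ) else 0) x

variable {kk cc}

lemma abs_G_le (hcc : ∀ y, |cc y| ≤ 1) (j : ℕ) (y : S) : |G kk cc j y| ≤ 1 := by
  unfold G
  split_ifs
  · exact hcc y
  · simp

lemma DD_end {n R : ℕ} (hkk : ∀ y, kk y ≤ n) (a b : S) : C.DD kk cc R a b n = 0 := by
  have h : ∀ y, G kk cc n y = 0 := fun y => by
    unfold G
    rw [if_neg (by have := hkk y; omega)]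
  have h' : G kk cc n = fun _ => 0 := funext h
  unfold DD
  rw [h']
  simp [A_eq]

lemma abs_G_sub_le (hcc : ∀ y, |cc y| ≤ 1) (j : ℕ) (y : S) :
    |G kk cc j y - G kk cc (j + 1) y| ≤ if kk y = j + 1 then (1 : ℝ) else 0 := by
  unfold G
  by_cases h1 : j + 1 < kk y
  · have h2 : j < kk y := by omega
    have h3 : kk y ≠ j + 1 := by omega
    simp [h1, h2, h3]
  · by_cases h2 : j < kk y
    · have h3 : kk y = j + 1 := by omega
      have h4 : ¬ (j + 1 < kk y) := h1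
      rw [if_pos h2, if_neg h4, if_pos h3, sub_zero]
      exact hcc y
    · have h3 : kk y ≠ j + 1 := by omega
      simp [h1, h2, h3]

lemma abs_DD_inc_le {R : ℕ} (hcc : ∀ y, |cc y| ≤ 1) (a b : S) (j : ℕ) :
    |C.DD kk cc R a b j - C.DD kk cc R a b (j + 1)|
      ≤ C.Lam kk R a (j + 1) + C.Lam kk R b (j + 1) := by
  have hx : ∀ x, |C.A R (G kk cc j) x - C.A R (G kk cc (j + 1)) x| ≤ C.Lam kk R x (j + 1) := by
    intro x
    rw [← C.A_sub]
    refine (C.abs_A_le R _ x).trans ?_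
    unfold Lam
    exact C.A_mono R (fun y => abs_G_sub_le hcc j y) x
  have e : C.DD kk cc R a b j - C.DD kk cc R a b (j + 1)
      = (C.A R (G kk cc j) b - C.A R (G kk cc (j + 1)) b)
        - (C.A R (G kk cc j) a - C.A R (G kk cc (j + 1)) a) := by
    unfold DD; ring
  rw [e]
  refine (abs_sub _ _).trans ?_
  have h1 := hx a
  have h2 := hx b
  linarith

lemma sum_Lam_le {R : ℕ} (n : ℕ) (x : S) (F : ℕ → ℝ) (hF : ∀ j, 0 ≤ F j) :
    ∑ j ∈ range n, C.Lam kk R x (j + 1) * F j ≤ ∑ y, C.Ak R x y * F (kk y - 1) := by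
  simp only [Lam, A_eq, Finset.sum_mul]
  rw [Finset.sum_comm]
  refine Finset.sum_le_sum fun y _ => ?_
  have h := sum_ite_succ_le n (kk y) F hF
  calc ∑ j ∈ range n, C.Ak R x y * (if kk y = j + 1 then (1 : ℝ) else 0) * F j
      = C.Ak R x y * ∑ j ∈ range n, (if kk y = j + 1 then (1 : ℝ) else 0) * F j := by
        rw [Finset.mul_sum]
        exact Finset.sum_congr rfl fun j _ => by ring
    _ ≤ _ := mul_le_mul_of_nonneg_left h (C.Ak_nonneg R x y)

lemma sum_Lam_le' {R : ℕ} (n : ℕ) (x : S) (F : ℕ → ℝ) (hF : ∀ j, 0 ≤ F j) :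
    ∑ j ∈ range n, C.Lam kk R x (j + 1) * F (j + 1) ≤ ∑ y, C.Ak R x y * F (kk y) := by
  simp only [Lam, A_eq, Finset.sum_mul]
  rw [Finset.sum_comm]
  refine Finset.sum_le_sum fun y _ => ?_
  have h := sum_ite_succ_le' n (kk y) F hF
  calc ∑ j ∈ range n, C.Ak R x y * (if kk y = j + 1 then (1 : ℝ) else 0) * F (j + 1)
      = C.Ak R x y * ∑ j ∈ range n, (if kk y = j + 1 then (1 : ℝ) else 0) * F (j + 1) := by
        rw [Finset.mul_sum]
        exact Finset.sum_congr rfl fun j _ => by ring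
    _ ≤ _ := mul_le_mul_of_nonneg_left h (C.Ak_nonneg R x y)

/-- The pointwise bound for `|D m|^3` on one edge. -/
lemma DD_cube_le {n R : ℕ} (hkk : ∀ y, kk y ≤ n) (hcc : ∀ y, |cc y| ≤ 1) (a b : S)
    {m : ℕ} (hm : m ≤ n) :
    |C.DD kk cc R a b m| ^ (3 : ℕ)
      ≤ (3 / 2) * (∑ y, C.Ak R a y * C.DD kk cc R a b (kk y - 1) ^ (2 : ℕ)
        + ∑ y, C.Ak R a y * C.DD kk cc R a b (kk y) ^ (2 : ℕ)
        + ∑ y, C.Ak R b y * C.DD kk cc R a b (kk y - 1) ^ (2 : ℕ)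
        + ∑ y, C.Ak R b y * C.DD kk cc R a b (kk y) ^ (2 : ℕ)) := by
  have h := cvm_end (n := n) (C.DD kk cc R a b)
    (fun j => C.Lam kk R a (j + 1) + C.Lam kk R b (j + 1))
    (C.DD_end hkk a b) (fun j _ => C.abs_DD_inc_le hcc a b j) hm
  refine h.trans ?_
  refine mul_le_mul_of_nonneg_left ?_ (by norm_num)
  have hF : ∀ j, 0 ≤ C.DD kk cc R a b j ^ (2 : ℕ) := fun j => by positivity
  have h1 := C.sum_Lam_le (kk := kk) (R := R) n a (fun j => C.DD kk cc R a b j ^ (2 : ℕ)) hF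
  have h2 := C.sum_Lam_le' (kk := kk) (R := R) n a (fun j => C.DD kk cc R a b j ^ (2 : ℕ)) hF
  have h3 := C.sum_Lam_le (kk := kk) (R := R) n b (fun j => C.DD kk cc R a b j ^ (2 : ℕ)) hF
  have h4 := C.sum_Lam_le' (kk := kk) (R := R) n b (fun j => C.DD kk cc R a b j ^ (2 : ℕ)) hF
  have e : ∑ j ∈ range n, (C.Lam kk R a (j + 1) + C.Lam kk R b (j + 1))
        * (C.DD kk cc R a b j ^ (2 : ℕ) + C.DD kk cc R a b (j + 1) ^ (2 : ℕ))
      = ∑ j ∈ range n, C.Lam kk R a (j + 1) * C.DD kk cc R a b j ^ (2 : ℕ)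
        + ∑ j ∈ range n, C.Lam kk R a (j + 1) * C.DD kk cc R a b (j + 1) ^ (2 : ℕ)
        + ∑ j ∈ range n, C.Lam kk R b (j + 1) * C.DD kk cc R a b j ^ (2 : ℕ)
        + ∑ j ∈ range n, C.Lam kk R b (j + 1) * C.DD kk cc R a b (j + 1) ^ (2 : ℕ) := by
    simp only [← Finset.sum_add_distrib]
    exact Finset.sum_congr rfl fun j _ => by ring
  rw [e]
  linarith

/-- The maximum of the gradient of the threshold functions on an edge. -/
noncomputable def MM (kk : S → ℕ) (cc : S → ℝ) (n R : ℕ) (a b : S) : ℝ :=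
  (range (n + 1)).sup' (nonempty_range_add_one) (fun m => |C.DD kk cc R a b m|)

lemma MM_nonneg (n R : ℕ) (a b : S) : 0 ≤ C.MM kk cc n R a b := by
  unfold MM
  refine (abs_nonneg (C.DD kk cc R a b 0)).trans ?_
  exact Finset.le_sup' (fun m => |C.DD kk cc R a b m|) (Finset.mem_range.mpr (Nat.succ_pos n))

lemma abs_DD_le_MM {n : ℕ} (R : ℕ) (a b : S) {j : ℕ} (hj : j ≤ n) :
    |C.DD kk cc R a b j| ≤ C.MM kk cc n R a b := by
  unfold MM
  exact Finset.le_sup' (fun m => |C.DD kk cc R a b m|) (Finset.mem_range.mpr (by omega))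

/-- Third moment of the edge maximum. -/
theorem MM_cube_sum {n R : ℕ} (hR : 1 ≤ R) (hkk : ∀ y, kk y ≤ n) (hcc : ∀ y, |cc y| ≤ 1) :
    ∑ a, ∑ b, C.pi a * C.P a b * C.MM kk cc n R a b ^ (3 : ℕ) ≤ 36 / R := by
  have hpt : ∀ a b, C.MM kk cc n R a b ^ (3 : ℕ)
      ≤ (3 / 2) * (∑ y, C.Ak R a y * C.DD kk cc R a b (kk y - 1) ^ (2 : ℕ)
        + ∑ y, C.Ak R a y * C.DD kk cc R a b (kk y) ^ (2 : ℕ)
        + ∑ y, C.Ak R b y * C.DD kk cc R a b (kk y - 1) ^ (2 : ℕ)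
        + ∑ y, C.Ak R b y * C.DD kk cc R a b (kk y) ^ (2 : ℕ)) := by
    intro a b
    obtain ⟨m, hm, hmax⟩ := Finset.exists_mem_eq_sup' (s := range (n + 1)) nonempty_range_add_one
      (fun m => |C.DD kk cc R a b m|)
    have hm' : m ≤ n := by
      have := Finset.mem_range.mp hm
      omega
    have := C.DD_cube_le (R := R) hkk hcc a b hm'
    unfold MM
    rw [hmax]
    exact this
  have hbd : ∀ j y, |G kk cc j y| ≤ 1 := fun j y => abs_G_le hcc j y
  have k1 := C.key_lemma hR (fun y => G kk cc (kk y - 1)) (fun y x => hbd _ x)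
  have k2 := C.key_lemma hR (fun y => G kk cc (kk y)) (fun y x => hbd _ x)
  have k3 := C.key_lemma_swap hR (fun y => G kk cc (kk y - 1)) (fun y x => hbd _ x)
  have k4 := C.key_lemma_swap hR (fun y => G kk cc (kk y)) (fun y x => hbd _ x)
  have hw : ∀ a b, 0 ≤ C.pi a * C.P a b := fun a b => mul_nonneg (C.pi_nonneg a) (C.P_nonneg a b)
  calc ∑ a, ∑ b, C.pi a * C.P a b * C.MM kk cc n R a b ^ (3 : ℕ)
      ≤ ∑ a, ∑ b, C.pi a * C.P a b * ((3 / 2) * (∑ y, C.Ak R a y * C.DD kk cc R a b (kk y - 1) ^ (2 : ℕ)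
        + ∑ y, C.Ak R a y * C.DD kk cc R a b (kk y) ^ (2 : ℕ)
        + ∑ y, C.Ak R b y * C.DD kk cc R a b (kk y - 1) ^ (2 : ℕ)
        + ∑ y, C.Ak R b y * C.DD kk cc R a b (kk y) ^ (2 : ℕ))) :=
        Finset.sum_le_sum fun a _ => Finset.sum_le_sum fun b _ =>
          mul_le_mul_of_nonneg_left (hpt a b) (hw a b)
    _ = (3 / 2) * (∑ a, ∑ b, C.pi a * C.P a b * ∑ y, C.Ak R a y * C.DD kk cc R a b (kk y - 1) ^ (2 : ℕ)
        + ∑ a, ∑ b, C.pi a * C.P a b * ∑ y, C.Ak R a y * C.DD kk cc R a b (kk y) ^ (2 : ℕ)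
        + ∑ a, ∑ b, C.pi a * C.P a b * ∑ y, C.Ak R b y * C.DD kk cc R a b (kk y - 1) ^ (2 : ℕ)
        + ∑ a, ∑ b, C.pi a * C.P a b * ∑ y, C.Ak R b y * C.DD kk cc R a b (kk y) ^ (2 : ℕ)) := by
        simp only [← Finset.sum_add_distrib, Finset.mul_sum]
        refine Finset.sum_congr rfl fun a _ => Finset.sum_congr rfl fun b _ => ?_
        simp only [mul_add, Finset.mul_sum, ← Finset.sum_add_distrib]
        exact Finset.sum_congr rfl fun y _ => by ring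
    _ ≤ (3 / 2) * (6 / R + 6 / R + 6 / R + 6 / R) := by
        refine mul_le_mul_of_nonneg_left ?_ (by norm_num)
        exact add_le_add (add_le_add (add_le_add k1 k2) k3) k4
    _ = 36 / R := by ring

end Dual

end RevChain

end Vale.Agent.Lib.P125
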