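import Vale.Agent.Lib.P125.Moment

/-!
# P125, Theorem Sigma: removal of null states and the final bound
-/

namespace Vale.Agent.Lib.P125

open Finset

namespace RevChain

variable {S : Type*} [Fintype S] [DecidableEq S] (C : RevChain S)

/-- The chain with the null states made absorbing. -/
noncomputable def lazy : RevChain S where
  pi := C.pi
  P := fun x y => if C.pi x = 0 then (if x = y then 1 else 0) else C.P x y
  pi_nonneg := C.pi_nonneg
  pi_sum := C.pi_sum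
  P_nonneg := fun x y => by
    show (0 : ℝ) ≤ if C.pi x = 0 then (if x = y then 1 else 0) else C.P x y
    split_ifs
    · norm_num
    · norm_num
    · exact C.P_nonneg x y
  P_sum := fun x => by
    by_cases h : C.pi x = 0
    · simp [h]
    · simp only [h, if_false]
      exact C.P_sum x
  rev := fun x y => by
    show C.pi x * (if C.pi x = 0 then (if x = y then (1 : ℝ) else 0) else C.P x y)
      = C.pi y * (if C.pi y = 0 then (if y = x then (1 : ℝ) else 0) else C.P y x)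
    by_cases hx : C.pi x = 0
    · by_cases hy : C.pi y = 0
      · simp [hx, hy]
      · have := C.rev x y
        rw [hx, zero_mul] at this
        simp [hx, hy, ← this]
    · by_cases hy : C.pi y = 0
      · have := C.rev y x
        rw [hy, zero_mul] at this
        simp [hx, hy, ← this]
      · simp only [hx, hy, if_false]
        exact C.rev x y

lemma lazy_Q (t : ℕ) (x z : S) : C.pi x * C.lazy.Q t x z = C.pi x * C.Q t x z := by
  induction t generalizing z with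
  | zero =>
    simp only [Q_zero_apply]
  | succ t ih =>
    rw [Q_succ', Q_succ', Finset.mul_sum, Finset.mul_sum]
    refine Finset.sum_congr rfl fun a _ => ?_
    rw [← mul_assoc, ih a, mul_assoc]
    by_cases ha : C.pi a = 0
    · have h0 : C.pi x * C.Q t x a = 0 := by
        rw [C.Q_rev t x a, ha, zero_mul]
      rw [← mul_assoc, h0, ← mul_assoc, h0, zero_mul, zero_mul]
    · congr 2
      show (if C.pi a = 0 then (if a = z then (1 : ℝ) else 0) else C.P a z) = C.P a z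
      rw [if_neg ha]

lemma lazy_step {n : ℕ} (u : S → ℕ → ℝ)
    (hstep : ∀ a b, C.pi a * C.P a b ≠ 0 → ∑ j ∈ range n, |u b j - u a j| ≤ 1) :
    ∀ a b, C.lazy.P a b ≠ 0 → ∑ j ∈ range n, |u b j - u a j| ≤ 1 := by
  intro a b hP
  by_cases ha : C.pi a = 0
  · have h1 : C.lazy.P a b = if a = b then 1 else 0 := by
      show (if C.pi a = 0 then (if a = b then (1 : ℝ) else 0) else C.P a b) = _
      rw [if_pos ha]
    rw [h1] at hP
    have hab : a = b := by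
      by_contra hne
      simp [hne] at hP
    subst hab
    simp
  · have h1 : C.lazy.P a b = C.P a b := by
      show (if C.pi a = 0 then (if a = b then (1 : ℝ) else 0) else C.P a b) = _
      rw [if_neg ha]
    rw [h1] at hP
    exact hstep a b (mul_ne_zero ha hP)

/-- The third moment bound, with the step hypothesis only on edges of positive weight. -/
theorem moment_edges {n : ℕ} (u : S → ℕ → ℝ)
    (hstep : ∀ a b, C.pi a * C.P a b ≠ 0 → ∑ j ∈ range n, |u b j - u a j| ≤ 1)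
    {r t : ℕ} (hr : 1 ≤ r) (ht : 1 ≤ t) :
    ∑ x, ∑ z, C.pi x * C.Q t x z * HH u n x z ^ (3 : ℕ)
      ≤ 171 * (t : ℝ) ^ (2 : ℕ) * ((r : ℝ) ^ (3 : ℕ) + t / r) := by
  have h := C.lazy.HH_moment_final u (C.lazy_step u hstep) hr ht
  refine le_of_eq_of_le ?_ h
  refine Finset.sum_congr rfl fun x _ => Finset.sum_congr rfl fun z _ => ?_
  have := C.lazy_Q t x z
  show C.pi x * C.Q t x z * _ = C.pi x * C.lazy.Q t x z * _
  rw [this]

/-- Jensen for the two-point law. -/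
lemma two_point_jensen (t : ℕ) (M : S → S → ℝ) (hM : ∀ a b, 0 ≤ M a b) :
    (∑ a, ∑ b, C.pi a * C.Q t a b * M a b) ^ (3 : ℕ)
      ≤ ∑ a, ∑ b, C.pi a * C.Q t a b * M a b ^ (3 : ℕ) := by
  have hw : ∑ p : S × S, C.pi p.1 * C.Q t p.1 p.2 = 1 := by
    rw [Fintype.sum_prod_type]
    simp only [← Finset.mul_sum, C.Q_sum, mul_one, C.pi_sum]
  have := Real.pow_arith_mean_le_arith_mean_pow (Finset.univ : Finset (S × S))
    (fun p => C.pi p.1 * C.Q t p.1 p.2) (fun p => M p.1 p.2)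
    (fun p _ => mul_nonneg (C.pi_nonneg _) (C.Q_nonneg _ _ _)) hw (fun p _ => hM _ _) 3
  rw [Fintype.sum_prod_type, Fintype.sum_prod_type] at this
  exact this

end RevChain

/-- The choice of `r`, giving the bound with the exponent `11 / 4`. -/
lemma exists_r {t : ℕ} (ht : 1 ≤ t) : ∃ r : ℕ, 1 ≤ r ∧ r ^ (4 : ℕ) ≤ t ∧ t < 16 * r ^ (4 : ℕ) := by
  set s := Nat.sqrt t with hs
  set r := Nat.sqrt s with hr
  have h1 : s * s ≤ t := Nat.sqrt_le t
  have h2 : t < (s + 1) * (s + 1) := Nat.lt_succ_sqrt t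
  have h3 : r * r ≤ s := Nat.sqrt_le s
  have h4 : s < (r + 1) * (r + 1) := Nat.lt_succ_sqrt s
  have hs1 : 1 ≤ s := by
    by_contra hcon
    have : s = 0 := by omega
    rw [this] at h2
    omega
  have hr1 : 1 ≤ r := by
    by_contra hcon
    have : r = 0 := by omega
    rw [this] at h4
    omega
  refine ⟨r, hr1, ?_, ?_⟩
  · calc r ^ (4 : ℕ) = (r * r) * (r * r) := by ring
      _ ≤ s * s := Nat.mul_le_mul h3 h3
      _ ≤ t := h1
  · have h5 : s + 1 ≤ (r + 1) * (r + 1) := h4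
    have h6 : (r + 1) * (r + 1) ≤ 4 * (r * r) := by nlinarith
    have h7 : s + 1 ≤ 4 * (r * r) := h5.trans h6
    calc t < (s + 1) * (s + 1) := h2
      _ ≤ (4 * (r * r)) * (4 * (r * r)) := Nat.mul_le_mul h7 h7
      _ = 16 * r ^ (4 : ℕ) := by ring

/-- Elementary consequence of the choice of `r`. -/
lemma optimize {X : ℝ} {t : ℕ} (ht : 1 ≤ t)
    (hX : ∀ r : ℕ, 1 ≤ r → X ≤ 171 * (t : ℝ) ^ (2 : ℕ) * ((r : ℝ) ^ (3 : ℕ) + t / r)) :
    X ≤ 2907 * (t : ℝ) ^ ((11 : ℝ) / 4) := by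
  obtain ⟨r, hr1, hr2, hr3⟩ := exists_r ht
  have hrpos : (0 : ℝ) < r := by exact_mod_cast hr1
  have htpos : (0 : ℝ) < t := by exact_mod_cast ht
  have h2 : (t : ℝ) / r ≤ 16 * (r : ℝ) ^ (3 : ℕ) := by
    rw [div_le_iff₀ hrpos]
    have : (t : ℝ) ≤ 16 * (r : ℝ) ^ (4 : ℕ) := by exact_mod_cast hr3.le
    calc (t : ℝ) ≤ 16 * (r : ℝ) ^ (4 : ℕ) := this
      _ = 16 * (r : ℝ) ^ (3 : ℕ) * r := by ring
  have h3 : ((r : ℝ) ^ (4 : ℕ)) ≤ t := by exact_mod_cast hr2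
  have h4 : (r : ℝ) ^ (3 : ℕ) ≤ (t : ℝ) ^ ((3 : ℝ) / 4) := by
    have h5 : ((r : ℝ) ^ (4 : ℕ)) ^ ((3 : ℝ) / 4) ≤ (t : ℝ) ^ ((3 : ℝ) / 4) :=
      Real.rpow_le_rpow (by positivity) h3 (by norm_num)
    have h6 : ((r : ℝ) ^ (4 : ℕ)) ^ ((3 : ℝ) / 4) = (r : ℝ) ^ (3 : ℕ) := by
      rw [← Real.rpow_natCast (r : ℝ) 4, ← Real.rpow_mul hrpos.le, ← Real.rpow_natCast (r : ℝ) 3]
      norm_num
    rwa [h6] at h5
  have h7 : (t : ℝ) ^ (2 : ℕ) * (t : ℝ) ^ ((3 : ℝ) / 4) = (t : ℝ) ^ ((11 : ℝ) / 4) := by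
    rw [← Real.rpow_natCast (t : ℝ) 2, ← Real.rpow_add htpos]
    norm_num
  have h8 := hX r hr1
  calc X ≤ 171 * (t : ℝ) ^ (2 : ℕ) * ((r : ℝ) ^ (3 : ℕ) + t / r) := h8
    _ ≤ 171 * (t : ℝ) ^ (2 : ℕ) * ((r : ℝ) ^ (3 : ℕ) + 16 * (r : ℝ) ^ (3 : ℕ)) := by
        refine mul_le_mul_of_nonneg_left ?_ (by positivity)
        linarith
    _ = 2907 * ((t : ℝ) ^ (2 : ℕ) * (r : ℝ) ^ (3 : ℕ)) := by ring
    _ ≤ 2907 * ((t : ℝ) ^ (2 : ℕ) * (t : ℝ) ^ ((3 : ℝ) / 4)) := by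
        refine mul_le_mul_of_nonneg_left ?_ (by norm_num)
        exact mul_le_mul_of_nonneg_left h4 (by positivity)
    _ = _ := by rw [h7]

/-- From the third moment to the first moment. -/
lemma first_moment_of_cube {Y X : ℝ} {t : ℕ} (ht : 1 ≤ t) (hY : Y ^ (3 : ℕ) ≤ X)
    (hX : X ≤ 2907 * (t : ℝ) ^ ((11 : ℝ) / 4)) : Y ≤ 15 * (t : ℝ) ^ ((11 : ℝ) / 12) := by
  have htpos : (0 : ℝ) < t := by exact_mod_cast ht
  by_contra hcon
  push Not at hcon
  have h0 : 0 ≤ 15 * (t : ℝ) ^ ((11 : ℝ) / 12) := by positivity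
  have h1 : (15 * (t : ℝ) ^ ((11 : ℝ) / 12)) ^ (3 : ℕ) < Y ^ (3 : ℕ) :=
    pow_lt_pow_left₀ hcon h0 (by norm_num)
  have h2 : (15 * (t : ℝ) ^ ((11 : ℝ) / 12)) ^ (3 : ℕ) = 3375 * (t : ℝ) ^ ((11 : ℝ) / 4) := by
    rw [mul_pow, ← Real.rpow_natCast ((t : ℝ) ^ ((11 : ℝ) / 12)) 3, ← Real.rpow_mul htpos.le]
    norm_num
  have h3 : 0 < (t : ℝ) ^ ((11 : ℝ) / 4) := by positivity
  rw [h2] at h1
  linarith

end Vale.Agent.Lib.P125
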