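import Vale.Agent.Lib.P125.Basic

/-!
# P125, Theorem Sigma: the averaged kernel and the key lemma
-/

namespace Vale.Agent.Lib.P125

open Finset

namespace RevChain

variable {S : Type*} [Fintype S] [DecidableEq S] (C : RevChain S)

/-- Averaged kernel over times in `[R, 2R)`. -/
noncomputable def Ak (R : ℕ) (x y : S) : ℝ := (1 / (R : ℝ)) * ∑ i ∈ range R, C.Q (R + i) x y

/-- The averaging operator over times in `[R, 2R)`. -/
noncomputable def A (R : ℕ) (w : S → ℝ) (x : S) : ℝ := (1 / (R : ℝ)) * ∑ i ∈ range R, C.op (R + i) w x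

lemma A_eq (R : ℕ) (w : S → ℝ) (x : S) : C.A R w x = ∑ y, C.Ak R x y * w y := by
  simp only [A, Ak, op, Finset.mul_sum, Finset.sum_mul]
  rw [Finset.sum_comm]
  exact Finset.sum_congr rfl fun i _ => Finset.sum_congr rfl fun y _ => by ring

lemma Ak_nonneg (R : ℕ) (x y : S) : 0 ≤ C.Ak R x y := by
  unfold Ak
  exact mul_nonneg (by positivity) (Finset.sum_nonneg fun i _ => C.Q_nonneg _ _ _)

lemma Ak_sum {R : ℕ} (hR : 1 ≤ R) (x : S) : ∑ y, C.Ak R x y = 1 := by
  have hR' : (R : ℝ) ≠ 0 := by positivity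
  simp only [Ak, ← Finset.mul_sum]
  rw [Finset.sum_comm]
  simp only [C.Q_sum]
  simp only [Finset.sum_const, card_range, nsmul_eq_mul, mul_one]
  field_simp

lemma A_congr (R : ℕ) {v w : S → ℝ} (h : ∀ x, v x = w x) (x : S) : C.A R v x = C.A R w x := by
  have : v = w := funext h
  rw [this]

lemma A_sub (R : ℕ) (v w : S → ℝ) (x : S) :
    C.A R (fun y => v y - w y) x = C.A R v x - C.A R w x := by
  simp only [A_eq, mul_sub, Finset.sum_sub_distrib]

lemma A_const_mul (R : ℕ) (c : ℝ) (w : S → ℝ) (x : S) :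
    C.A R (fun y => c * w y) x = c * C.A R w x := by
  simp only [A_eq, Finset.mul_sum]
  exact Finset.sum_congr rfl fun y _ => by ring

lemma A_finset_sum {ι : Type*} (s : Finset ι) (R : ℕ) (w : ι → S → ℝ) (x : S) :
    C.A R (fun y => ∑ i ∈ s, w i y) x = ∑ i ∈ s, C.A R (w i) x := by
  simp only [A_eq, Finset.mul_sum]
  rw [Finset.sum_comm]

lemma A_mono (R : ℕ) {v w : S → ℝ} (h : ∀ x, v x ≤ w x) (x : S) : C.A R v x ≤ C.A R w x := by
  simp only [A_eq]
  exact Finset.sum_le_sum fun y _ => mul_le_mul_of_nonneg_left (h y) (C.Ak_nonneg R x y)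

lemma A_const {R : ℕ} (hR : 1 ≤ R) (c : ℝ) (x : S) : C.A R (fun _ => c) x = c := by
  simp only [A_eq, ← Finset.sum_mul, C.Ak_sum hR, one_mul]

lemma abs_A_le (R : ℕ) (w : S → ℝ) (x : S) : |C.A R w x| ≤ C.A R (fun y => |w y|) x := by
  simp only [A_eq]
  refine (Finset.abs_sum_le_sum_abs _ _).trans (le_of_eq ?_)
  refine Finset.sum_congr rfl fun y _ => ?_
  rw [abs_mul, abs_of_nonneg (C.Ak_nonneg R x y)]

lemma abs_A_le_of_bound {R : ℕ} (hR : 1 ≤ R) {w : S → ℝ} {B : ℝ} (h : ∀ x, |w x| ≤ B) (x : S) :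
    |C.A R w x| ≤ B := by
  refine (C.abs_A_le R w x).trans ?_
  have := C.A_mono R h x
  rwa [C.A_const hR] at this

lemma step_A (R : ℕ) (w : S → ℝ) (x : S) :
    C.step (C.A R w) x = (1 / (R : ℝ)) * ∑ i ∈ range R, C.op (R + i + 1) w x := by
  simp only [A, step, Finset.mul_sum]
  simp only [op_succ]
  rw [Finset.sum_comm]
  refine Finset.sum_congr rfl fun i _ => ?_
  simp only [step, Finset.mul_sum]
  exact Finset.sum_congr rfl fun y _ => by ring

lemma A_sub_step_A (R : ℕ) (w : S → ℝ) (x : S) :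
    C.A R w x - C.step (C.A R w) x
      = (1 / (R : ℝ)) * (C.op R w x - C.op (2 * R) w x) := by
  rw [step_A]
  unfold A
  rw [← mul_sub, ← Finset.sum_sub_distrib]
  congr 1
  have := Finset.sum_range_sub (fun i => C.op (R + i) w x) R
  have h2 : ∑ i ∈ range R, (C.op (R + i) w x - C.op (R + i + 1) w x)
      = - ∑ i ∈ range R, (C.op (R + (i + 1)) w x - C.op (R + i) w x) := by
    rw [← Finset.sum_neg_distrib]
    refine Finset.sum_congr rfl fun i _ => ?_
    rw [← add_assoc]; ring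
  rw [h2, this]
  rw [show R + R = 2 * R by ring, show R + 0 = R by ring]
  ring

lemma abs_A_sub_step_A_le {R : ℕ} {w : S → ℝ} {B : ℝ} (h : ∀ x, |w x| ≤ B) (x : S) :
    |C.A R w x - C.step (C.A R w) x| ≤ 2 * B / R := by
  rw [A_sub_step_A, abs_mul]
  have h1 := C.abs_op_le_of_bound R h x
  have h2 := C.abs_op_le_of_bound (2 * R) h x
  have h3 : |C.op R w x - C.op (2 * R) w x| ≤ 2 * B := by
    refine (abs_sub _ _).trans ?_
    linarith
  rw [abs_of_nonneg (by positivity : (0 : ℝ) ≤ 1 / (R : ℝ))]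
  calc 1 / (R : ℝ) * |C.op R w x - C.op (2 * R) w x| ≤ 1 / (R : ℝ) * (2 * B) :=
        mul_le_mul_of_nonneg_left h3 (by positivity)
    _ = 2 * B / R := by ring

lemma A_adjoint (R : ℕ) (φ ψ : S → ℝ) :
    ∑ x, C.pi x * φ x * C.A R ψ x = ∑ x, C.pi x * C.A R φ x * ψ x := by
  have key : ∀ i, ∑ x, C.pi x * φ x * C.op (R + i) ψ x = ∑ x, C.pi x * C.op (R + i) φ x * ψ x :=
    fun i => C.op_adjoint _ _ _
  unfold A
  calc ∑ x, C.pi x * φ x * ((1 / (R : ℝ)) * ∑ i ∈ range R, C.op (R + i) ψ x)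
      = (1 / (R : ℝ)) * ∑ i ∈ range R, ∑ x, C.pi x * φ x * C.op (R + i) ψ x := by
        rw [Finset.sum_comm, Finset.mul_sum]
        refine Finset.sum_congr rfl fun x _ => ?_
        rw [← Finset.mul_sum]; ring
    _ = (1 / (R : ℝ)) * ∑ i ∈ range R, ∑ x, C.pi x * C.op (R + i) φ x * ψ x := by
        simp only [key]
    _ = ∑ x, C.pi x * ((1 / (R : ℝ)) * ∑ i ∈ range R, C.op (R + i) φ x) * ψ x := by
        rw [Finset.sum_comm, Finset.mul_sum]
        refine Finset.sum_congr rfl fun x _ => ?_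
        rw [← Finset.sum_mul, ← Finset.mul_sum]; ring

lemma step_A_comm (R : ℕ) (w : S → ℝ) (x : S) : C.step (C.A R w) x = C.A R (C.step w) x := by
  rw [step_A]
  unfold A
  congr 1
  refine Finset.sum_congr rfl fun i _ => ?_
  rw [op_succ']

/-- The three-point quantity telescoped in the key lemma. -/
def SS (l : ℕ) (v w : S → S → ℝ) : ℝ := ∑ z, C.pi z * ∑ y, C.Q l z y * (v y z * w y z)

lemma abs_SS_le (l : ℕ) {v w : S → S → ℝ} {a b : ℝ} (hv : ∀ y z, |v y z| ≤ a)
    (hw : ∀ y z, |w y z| ≤ b) : |C.SS l v w| ≤ a * b := by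
  have hb : ∀ y z, |v y z * w y z| ≤ a * b := fun y z => by
    rw [abs_mul]
    exact mul_le_mul (hv y z) (hw y z) (abs_nonneg _) ((abs_nonneg _).trans (hv y z))
  have inner : ∀ z, |∑ y, C.Q l z y * (v y z * w y z)| ≤ a * b := fun z => by
    refine (Finset.abs_sum_le_sum_abs _ _).trans ?_
    calc ∑ y, |C.Q l z y * (v y z * w y z)| ≤ ∑ y, C.Q l z y * (a * b) := by
          refine Finset.sum_le_sum fun y _ => ?_
          rw [abs_mul, abs_of_nonneg (C.Q_nonneg l z y)]
          exact mul_le_mul_of_nonneg_left (hb y z) (C.Q_nonneg l z y)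
      _ = a * b := by rw [← Finset.sum_mul, C.Q_sum, one_mul]
  unfold SS
  refine (Finset.abs_sum_le_sum_abs _ _).trans ?_
  calc ∑ z, |C.pi z * ∑ y, C.Q l z y * (v y z * w y z)| ≤ ∑ z, C.pi z * (a * b) := by
        refine Finset.sum_le_sum fun z _ => ?_
        rw [abs_mul, abs_of_nonneg (C.pi_nonneg z)]
        exact mul_le_mul_of_nonneg_left (inner z) (C.pi_nonneg z)
    _ = a * b := by rw [← Finset.sum_mul, C.pi_sum, one_mul]

lemma SS_sub_left (l : ℕ) (v v' w : S → S → ℝ) :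
    C.SS l v w - C.SS l v' w = C.SS l (fun y z => v y z - v' y z) w := by
  unfold SS
  rw [← Finset.sum_sub_distrib]
  refine Finset.sum_congr rfl fun z _ => ?_
  rw [← mul_sub, ← Finset.sum_sub_distrib]
  congr 1
  refine Finset.sum_congr rfl fun y _ => ?_
  ring

/-- The edge identity for one time `l`. -/
lemma edge_identity (l : ℕ) (v : S → S → ℝ) :
    ∑ a, ∑ b, C.pi a * C.P a b * ∑ y, C.Q l a y * (v y b - v y a) ^ (2 : ℕ)
      = C.SS (l + 1) v v - 2 * C.SS l (fun y z => C.step (v y) z) v + C.SS l v v := by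
  have h1 : ∑ a, ∑ b, C.pi a * C.P a b * ∑ y, C.Q l a y * (v y b * v y b) = C.SS (l + 1) v v := by
    rw [Finset.sum_comm]
    unfold SS
    refine Finset.sum_congr rfl fun b _ => ?_
    have e : ∀ y, C.Q (l + 1) b y * (v y b * v y b)
        = ∑ a, C.P b a * (C.Q l a y * (v y b * v y b)) := by
      intro y
      rw [Q_succ, Finset.sum_mul]
      exact Finset.sum_congr rfl fun a _ => by ring
    simp only [e]
    rw [Finset.sum_comm, Finset.mul_sum]
    refine Finset.sum_congr rfl fun a _ => ?_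
    rw [C.rev a b, mul_assoc]
    congr 1
    rw [Finset.mul_sum]
  have h2 : ∑ a, ∑ b, C.pi a * C.P a b * ∑ y, C.Q l a y * (v y b * v y a)
      = C.SS l (fun y z => C.step (v y) z) v := by
    unfold SS
    refine Finset.sum_congr rfl fun a _ => ?_
    simp only [step, Finset.mul_sum, Finset.sum_mul]
    rw [Finset.sum_comm]
    refine Finset.sum_congr rfl fun y _ => Finset.sum_congr rfl fun b _ => ?_
    ring
  have h3 : ∑ a, ∑ b, C.pi a * C.P a b * ∑ y, C.Q l a y * (v y a * v y a) = C.SS l v v := by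
    unfold SS
    refine Finset.sum_congr rfl fun a _ => ?_
    calc ∑ b, C.pi a * C.P a b * ∑ y, C.Q l a y * (v y a * v y a)
        = (∑ b, C.P a b) * (C.pi a * ∑ y, C.Q l a y * (v y a * v y a)) := by
          rw [Finset.sum_mul]
          exact Finset.sum_congr rfl fun b _ => by ring
      _ = _ := by rw [C.P_sum, one_mul]
  rw [← h1, ← h2, ← h3, mul_comm (2 : ℝ), Finset.sum_mul]
  simp only [Finset.sum_mul]
  rw [← Finset.sum_sub_distrib, ← Finset.sum_add_distrib]
  refine Finset.sum_congr rfl fun a _ => ?_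
  rw [← Finset.sum_sub_distrib, ← Finset.sum_add_distrib]
  refine Finset.sum_congr rfl fun b _ => ?_
  simp only [Finset.mul_sum, Finset.sum_mul]
  rw [← Finset.sum_sub_distrib, ← Finset.sum_add_distrib]
  refine Finset.sum_congr rfl fun y _ => ?_
  ring

/-- **Key lemma.** The average over edges of the squared oscillation of `A_R h_y`, with `y`
sampled from `A_R(a, ·)`, is at most `6 / R`. -/
theorem key_lemma {R : ℕ} (hR : 1 ≤ R) (h : S → S → ℝ) (hh : ∀ y x, |h y x| ≤ 1) :
    ∑ a, ∑ b, C.pi a * C.P a b * ∑ y, C.Ak R a y * (C.A R (h y) b - C.A R (h y) a) ^ (2 : ℕ)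
      ≤ 6 / R := by
  have hRpos : (0 : ℝ) < R := by exact_mod_cast hR
  set u : S → S → ℝ := fun y z => C.A R (h y) z with hu
  have hu1 : ∀ y z, |u y z| ≤ 1 := fun y z => C.abs_A_le_of_bound hR (hh y) z
  -- expand Ak
  have hexp : ∑ a, ∑ b, C.pi a * C.P a b * ∑ y, C.Ak R a y * (u y b - u y a) ^ (2 : ℕ)
      = (1 / (R : ℝ)) * ∑ i ∈ range R,
          ∑ a, ∑ b, C.pi a * C.P a b * ∑ y, C.Q (R + i) a y * (u y b - u y a) ^ (2 : ℕ) := by
    have : ∀ a b, ∑ y, C.Ak R a y * (u y b - u y a) ^ (2 : ℕ)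
        = (1 / (R : ℝ)) * ∑ i ∈ range R, ∑ y, C.Q (R + i) a y * (u y b - u y a) ^ (2 : ℕ) := by
      intro a b
      simp only [Ak, Finset.mul_sum, Finset.sum_mul]
      rw [Finset.sum_comm]
      exact Finset.sum_congr rfl fun i _ => Finset.sum_congr rfl fun y _ => by ring
    simp only [this]
    symm
    rw [Finset.sum_comm, Finset.mul_sum]
    refine Finset.sum_congr rfl fun a _ => ?_
    rw [Finset.sum_comm, Finset.mul_sum]
    refine Finset.sum_congr rfl fun b _ => ?_
    rw [← Finset.mul_sum]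
    ring
  rw [hexp]
  simp only [edge_identity]
  -- rewrite each summand
  have hsplit : ∀ i ∈ range R,
      C.SS (R + i + 1) u u - 2 * C.SS (R + i) (fun y z => C.step (u y) z) u + C.SS (R + i) u u
        = (C.SS (R + (i + 1)) u u - C.SS (R + i) u u)
          + 2 * C.SS (R + i) (fun y z => u y z - C.step (u y) z) u := by
    intro i _
    rw [← C.SS_sub_left, ← add_assoc]
    ring
  rw [Finset.sum_congr rfl hsplit, Finset.sum_add_distrib]
  have htel := Finset.sum_range_sub (fun i => C.SS (R + i) u u) R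
  rw [htel]
  have h1 : |C.SS (R + R) u u - C.SS (R + 0) u u| ≤ 2 := by
    have a1 := C.abs_SS_le (R + R) hu1 hu1
    have a2 := C.abs_SS_le (R + 0) hu1 hu1
    refine (abs_sub _ _).trans ?_
    linarith
  have h2 : ∀ i ∈ range R, 2 * C.SS (R + i) (fun y z => u y z - C.step (u y) z) u ≤ 4 / R := by
    intro i _
    have hb : ∀ y z, |u y z - C.step (u y) z| ≤ 2 / R := fun y z => by
      have := C.abs_A_sub_step_A_le (R := R) (hh y) z
      simpa [hu] using this
    have := C.abs_SS_le (R + i) hb hu1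
    have h3 := (le_abs_self _).trans this
    calc 2 * C.SS (R + i) (fun y z => u y z - C.step (u y) z) u ≤ 2 * (2 / R * 1) := by linarith
      _ = 4 / R := by ring
  have h3 : ∑ i ∈ range R, 2 * C.SS (R + i) (fun y z => u y z - C.step (u y) z) u ≤ 4 := by
    calc _ ≤ ∑ i ∈ range R, (4 / R : ℝ) := Finset.sum_le_sum h2
      _ = 4 := by
        rw [Finset.sum_const, card_range, nsmul_eq_mul]
        field_simp
  have h4 := (le_abs_self _).trans h1
  calc (1 / (R : ℝ)) * ((C.SS (R + R) u u - C.SS (R + 0) u u)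
        + ∑ i ∈ range R, 2 * C.SS (R + i) (fun y z => u y z - C.step (u y) z) u)
      ≤ (1 / (R : ℝ)) * (2 + 4) := by
        refine mul_le_mul_of_nonneg_left ?_ (by positivity)
        linarith
    _ = 6 / R := by ring

/-- The key lemma with the sample `y` taken from the other endpoint of the edge. -/
theorem key_lemma_swap {R : ℕ} (hR : 1 ≤ R) (h : S → S → ℝ) (hh : ∀ y x, |h y x| ≤ 1) :
    ∑ a, ∑ b, C.pi a * C.P a b * ∑ y, C.Ak R b y * (C.A R (h y) b - C.A R (h y) a) ^ (2 : ℕ)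
      ≤ 6 / R := by
  have := C.key_lemma hR h hh
  refine le_of_eq_of_le ?_ this
  rw [Finset.sum_comm]
  refine Finset.sum_congr rfl fun b _ => Finset.sum_congr rfl fun a _ => ?_
  rw [C.rev a b]
  congr 1
  refine Finset.sum_congr rfl fun y _ => ?_
  ring

end RevChain

end Vale.Agent.Lib.P125
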