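import Vale.Agent.Lib.P125.Smooth

/-!
# P125, Theorem Sigma: forward second moments and the bridge inequality
-/

namespace Vale.Agent.Lib.P125

open Finset

namespace RevChain

variable {S : Type*} [Fintype S] [DecidableEq S] (C : RevChain S)

/-- The forward second moment of a scalar function. -/
noncomputable def TT (w : S → ℝ) (l : ℕ) (x : S) : ℝ := ∑ z, C.Q l x z * (w z - w x) ^ (2 : ℕ)

lemma TT_zero (w : S → ℝ) (x : S) : C.TT w 0 x = 0 := by
  unfold TT
  refine Finset.sum_eq_zero fun z _ => ?_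
  rw [Q_zero_apply]
  by_cases h : x = z
  · subst h; simp
  · simp [h]

lemma TT_inner (w : S → ℝ) (l : ℕ) (x y : S) :
    ∑ z, C.Q l y z * (w z - w x) ^ (2 : ℕ)
      = C.TT w l y + 2 * (C.op l w y - w y) * (w y - w x) + (w y - w x) ^ (2 : ℕ) := by
  have h1 : C.op l w y - w y = ∑ z, C.Q l y z * (w z - w y) := by
    simp only [op, mul_sub, Finset.sum_sub_distrib, ← Finset.sum_mul, C.Q_sum, one_mul]
  have h2 : (w y - w x) ^ (2 : ℕ) = ∑ z, C.Q l y z * (w y - w x) ^ (2 : ℕ) := by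
    rw [← Finset.sum_mul, C.Q_sum, one_mul]
  rw [h1, h2]
  unfold TT
  rw [Finset.mul_sum, Finset.sum_mul, ← Finset.sum_add_distrib,
    ← Finset.sum_add_distrib]
  refine Finset.sum_congr rfl fun z _ => ?_
  ring

lemma TT_succ (w : S → ℝ) (l : ℕ) (x : S) :
    C.TT w (l + 1) x = ∑ y, C.P x y
      * (C.TT w l y + 2 * (C.op l w y - w y) * (w y - w x) + (w y - w x) ^ (2 : ℕ)) := by
  simp only [← C.TT_inner w l x]
  unfold TT
  simp only [Q_succ, Finset.mul_sum, Finset.sum_mul]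
  rw [Finset.sum_comm]
  exact Finset.sum_congr rfl fun y _ => Finset.sum_congr rfl fun z _ => by ring

section Field

variable (u : S → ℕ → ℝ) {n : ℕ}

/-- The uniform bound for the forward second moments. -/
noncomputable def BB (n : ℕ) : ℕ → S → ℝ
  | 0, _ => 0
  | l + 1, x => C.step (fun y => BB n l y + 1 + 2 * C.ee u n l y) x

lemma BB_nonneg (l : ℕ) (x : S) : 0 ≤ C.BB u n l x := by
  induction l generalizing x with
  | zero => simp [BB]
  | succ l ih =>
    rw [BB]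
    unfold step
    refine Finset.sum_nonneg fun y _ => mul_nonneg (C.P_nonneg x y) ?_
    have h1 := ih y
    have h2 := C.ee_nonneg u (n := n) l y
    linarith

lemma TT_le_BB (hstep : ∀ a b, C.P a b ≠ 0 → ∑ j ∈ range n, |u b j - u a j| ≤ 1)
    {k : ℕ} (hk : k ≤ n) (l : ℕ) (x : S) : C.TT (ww u k) l x ≤ C.BB u n l x := by
  induction l generalizing x with
  | zero => simp [TT_zero, BB]
  | succ l ih =>
    rw [TT_succ, BB]
    unfold step
    refine Finset.sum_le_sum fun y _ => ?_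
    by_cases hP : C.P x y = 0
    · simp [hP]
    · refine mul_le_mul_of_nonneg_left ?_ (C.P_nonneg x y)
      have h1 := ih y
      have h2 : |ww u k y - ww u k x| ≤ 1 := C.abs_ww_step_le u hstep hk x y hP
      have h3 := C.abs_op_sub_le_ee u hk l y
      have h4 : (C.op l (ww u k) y - ww u k y) * (ww u k y - ww u k x) ≤ C.ee u n l y := by
        calc (C.op l (ww u k) y - ww u k y) * (ww u k y - ww u k x)
            ≤ |(C.op l (ww u k) y - ww u k y) * (ww u k y - ww u k x)| := le_abs_self _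
          _ = |C.op l (ww u k) y - ww u k y| * |ww u k y - ww u k x| := abs_mul _ _
          _ ≤ C.ee u n l y * 1 :=
            mul_le_mul h3 h2 (abs_nonneg _) (C.ee_nonneg u l y)
          _ = _ := mul_one _
      have h5 : (ww u k y - ww u k x) ^ (2 : ℕ) ≤ 1 := by
        rw [← sq_abs]
        calc |ww u k y - ww u k x| ^ (2 : ℕ) ≤ 1 ^ (2 : ℕ) :=
              pow_le_pow_left₀ (abs_nonneg _) h2 2
          _ = 1 := one_pow 2
      nlinarith

lemma mean_BB_succ (l : ℕ) :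
    ∑ x, C.pi x * C.BB u n (l + 1) x
      = ∑ x, C.pi x * C.BB u n l x + 1 + 2 * ∑ x, C.pi x * C.ee u n l x := by
  have h : ∀ x, C.BB u n (l + 1) x = C.step (fun y => C.BB u n l y + 1 + 2 * C.ee u n l y) x :=
    fun x => by rw [BB]
  simp only [h]
  rw [C.pi_step]
  simp only [mul_add, Finset.sum_add_distrib]
  rw [Finset.mul_sum]
  congr 1
  · congr 1
    simp [C.pi_sum]
  · exact Finset.sum_congr rfl fun x _ => by ring

/-- Mean of `BB`. -/
lemma mean_BB_le (hstep : ∀ a b, C.P a b ≠ 0 → ∑ j ∈ range n, |u b j - u a j| ≤ 1)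
    {r : ℕ} (hr : 1 ≤ r) {t l : ℕ} (hl : l ≤ t) :
    ∑ x, C.pi x * C.BB u n l x
      ≤ l * (1 + 2 * (4 * (r : ℝ) ^ (3 : ℕ) + t * (2 / r))) := by
  induction l with
  | zero => simp [BB]
  | succ l ih =>
    rw [C.mean_BB_succ]
    have h1 := ih (by omega)
    have h2 := C.ee_mean_le u hstep hr l
    have hrpos : (0 : ℝ) < r := by exact_mod_cast hr
    have h3 : (l : ℝ) * (2 / r) ≤ t * (2 / r) := by
      refine mul_le_mul_of_nonneg_right ?_ (by positivity)
      exact_mod_cast (by omega : l ≤ t)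
    push_cast
    nlinarith

end Field

/-- The bridge inequality. -/
lemma bridge (v : S → ℝ) (t : ℕ) (x z : S) :
    C.Q t x z * |v z - v x|
      ≤ ∑ s ∈ range t, ∑ a, ∑ b, C.Q s x a * C.P a b * C.Q (t - 1 - s) b z * |v b - v a| := by
  induction t generalizing z with
  | zero =>
    rw [Q_zero_apply]
    by_cases h : x = z
    · subst h; simp
    · simp [h]
  | succ t ih =>
    rw [Finset.sum_range_succ]
    have hlast : ∑ a, ∑ b, C.Q t x a * C.P a b * C.Q (t + 1 - 1 - t) b z * |v b - v a|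
        = ∑ a, C.Q t x a * C.P a z * |v z - v a| := by
      refine Finset.sum_congr rfl fun a _ => ?_
      have e : t + 1 - 1 - t = 0 := by omega
      rw [e]
      simp only [Q_zero_apply]
      simp
    have hrest : ∑ s ∈ range t, ∑ a, ∑ b, C.Q s x a * C.P a b * C.Q (t + 1 - 1 - s) b z * |v b - v a|
        = ∑ a', C.P a' z * ∑ s ∈ range t, ∑ a, ∑ b,
            C.Q s x a * C.P a b * C.Q (t - 1 - s) b a' * |v b - v a| := by
      simp only [Finset.mul_sum]
      symm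
      rw [Finset.sum_comm]
      refine Finset.sum_congr rfl fun s hs => ?_
      rw [Finset.sum_comm]
      refine Finset.sum_congr rfl fun a _ => ?_
      rw [Finset.sum_comm]
      refine Finset.sum_congr rfl fun b _ => ?_
      have hs' : s < t := Finset.mem_range.mp hs
      have e : t + 1 - 1 - s = (t - 1 - s) + 1 := by omega
      rw [e, Q_succ', Finset.mul_sum, Finset.sum_mul]
      refine Finset.sum_congr rfl fun a' _ => ?_
      ring
    rw [hlast, hrest, Q_succ', Finset.sum_mul]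
    rw [← Finset.sum_add_distrib]
    refine Finset.sum_le_sum fun a _ => ?_
    have h1 := ih a
    have h2 : |v z - v x| ≤ |v z - v a| + |v a - v x| := abs_sub_le _ _ _
    have hQ := C.Q_nonneg t x a
    have hPn := C.P_nonneg a z
    calc C.Q t x a * C.P a z * |v z - v x|
        ≤ C.Q t x a * C.P a z * (|v z - v a| + |v a - v x|) :=
          mul_le_mul_of_nonneg_left h2 (mul_nonneg hQ hPn)
      _ = C.P a z * (C.Q t x a * |v a - v x|) + C.Q t x a * C.P a z * |v z - v a| := by ring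
      _ ≤ _ := by
        refine add_le_add ?_ le_rfl
        exact mul_le_mul_of_nonneg_left h1 hPn

section Assemble

variable (u : S → ℕ → ℝ) {n : ℕ}

/-- Three-term split of a squared increment, summed against the two-sided kernel. -/
lemma weight_le (hstep : ∀ a b, C.P a b ≠ 0 → ∑ j ∈ range n, |u b j - u a j| ≤ 1)
    {k : ℕ} (hk : k ≤ n) (s s' : ℕ) (a b : S) (hP : C.P a b ≠ 0) :
    ∑ x, ∑ z, C.pi x * C.Q s x a * C.Q s' b z * (ww u k z - ww u k x) ^ (2 : ℕ)
      ≤ 3 * (C.pi a * (C.BB u n s a + 1 + C.BB u n s' b)) := by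
  set w := ww u k with hw
  have hstepw : (w b - w a) ^ (2 : ℕ) ≤ 1 := by
    have h2 : |w b - w a| ≤ 1 := C.abs_ww_step_le u hstep hk a b hP
    rw [← sq_abs]
    calc |w b - w a| ^ (2 : ℕ) ≤ 1 ^ (2 : ℕ) := pow_le_pow_left₀ (abs_nonneg _) h2 2
      _ = 1 := one_pow 2
  have hpt : ∀ x z, (w z - w x) ^ (2 : ℕ)
      ≤ 3 * ((w x - w a) ^ (2 : ℕ) + 1 + (w z - w b) ^ (2 : ℕ)) := by
    intro x z
    have e : w z - w x = (w z - w b) + (w b - w a) - (w x - w a) := by ring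
    rw [e]
    nlinarith [sq_nonneg ((w z - w b) - (w b - w a)), sq_nonneg ((w z - w b) + (w x - w a)),
      sq_nonneg ((w b - w a) + (w x - w a))]
  have hnn : ∀ x z, 0 ≤ C.pi x * C.Q s x a * C.Q s' b z := fun x z =>
    mul_nonneg (mul_nonneg (C.pi_nonneg x) (C.Q_nonneg _ _ _)) (C.Q_nonneg _ _ _)
  have h1 : ∑ x, ∑ z, C.pi x * C.Q s x a * C.Q s' b z * (w z - w x) ^ (2 : ℕ)
      ≤ ∑ x, ∑ z, C.pi x * C.Q s x a * C.Q s' b z
          * (3 * ((w x - w a) ^ (2 : ℕ) + 1 + (w z - w b) ^ (2 : ℕ))) :=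
    Finset.sum_le_sum fun x _ => Finset.sum_le_sum fun z _ =>
      mul_le_mul_of_nonneg_left (hpt x z) (hnn x z)
  refine h1.trans ?_
  have h2 : ∑ x, C.pi x * C.Q s x a * (w x - w a) ^ (2 : ℕ) = C.pi a * C.TT w s a := by
    unfold TT
    rw [Finset.mul_sum]
    refine Finset.sum_congr rfl fun x _ => ?_
    rw [C.Q_rev s x a]
    ring
  have h3 : ∑ x, C.pi x * C.Q s x a = C.pi a := C.pi_Q s a
  have h4 : ∑ z, C.Q s' b z = 1 := C.Q_sum s' b
  have h5 : ∑ z, C.Q s' b z * (w z - w b) ^ (2 : ℕ) = C.TT w s' b := rfl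
  have hfac : ∑ x, ∑ z, C.pi x * C.Q s x a * C.Q s' b z
        * (3 * ((w x - w a) ^ (2 : ℕ) + 1 + (w z - w b) ^ (2 : ℕ)))
      = 3 * ((∑ x, C.pi x * C.Q s x a * (w x - w a) ^ (2 : ℕ)) * (∑ z, C.Q s' b z)
          + (∑ x, C.pi x * C.Q s x a) * (∑ z, C.Q s' b z)
          + (∑ x, C.pi x * C.Q s x a) * (∑ z, C.Q s' b z * (w z - w b) ^ (2 : ℕ))) := by
    rw [Finset.sum_mul_sum, Finset.sum_mul_sum, Finset.sum_mul_sum, ← Finset.sum_add_distrib,
      ← Finset.sum_add_distrib, Finset.mul_sum]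
    refine Finset.sum_congr rfl fun x _ => ?_
    rw [← Finset.sum_add_distrib, ← Finset.sum_add_distrib, Finset.mul_sum]
    refine Finset.sum_congr rfl fun z _ => ?_
    ring
  rw [hfac, h2, h3, h4, h5]
  have h6 := C.TT_le_BB u hstep hk s a
  have h7 := C.TT_le_BB u hstep hk s' b
  have hpa := C.pi_nonneg a
  have : C.pi a * C.TT w s a * 1 + C.pi a * 1 + C.pi a * C.TT w s' b
      ≤ C.pi a * (C.BB u n s a + 1 + C.BB u n s' b) := by
    have a1 := mul_le_mul_of_nonneg_left h6 hpa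
    have a2 := mul_le_mul_of_nonneg_left h7 hpa
    nlinarith
  linarith

/-- Rearrangement of a triple sum. -/
lemma sum2_comm {X Z I : Type*} (sX : Finset X) (sZ : Finset Z) (sI : Finset I)
    (g : X → Z → I → ℝ) :
    ∑ x ∈ sX, ∑ z ∈ sZ, ∑ i ∈ sI, g x z i = ∑ i ∈ sI, ∑ x ∈ sX, ∑ z ∈ sZ, g x z i := by
  calc ∑ x ∈ sX, ∑ z ∈ sZ, ∑ i ∈ sI, g x z i
      = ∑ x ∈ sX, ∑ i ∈ sI, ∑ z ∈ sZ, g x z i :=
        Finset.sum_congr rfl fun x _ => Finset.sum_comm
    _ = _ := Finset.sum_comm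

/-- The sup-norm of the displacement. -/
noncomputable def HH (u : S → ℕ → ℝ) (n : ℕ) (x z : S) : ℝ :=
  (range (n + 1)).sup' nonempty_range_add_one (fun k => |ww u k z - ww u k x|)

lemma HH_cube_le (x z : S) :
    HH u n x z ^ (3 : ℕ) ≤ (3 / 2) * ∑ j ∈ range n, |u z j - u x j|
      * ((ww u j z - ww u j x) ^ (2 : ℕ) + (ww u (j + 1) z - ww u (j + 1) x) ^ (2 : ℕ)) := by
  obtain ⟨m, hm, hmax⟩ := Finset.exists_mem_eq_sup' (s := range (n + 1)) nonempty_range_add_one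
    (fun m => |ww u m z - ww u m x|)
  have hm' : m ≤ n := by
    have := Finset.mem_range.mp hm
    omega
  have := cvm_start (n := n) (fun k => ww u k z - ww u k x) (by simp [ww_zero]) hm'
  unfold HH
  rw [hmax]
  refine this.trans (le_of_eq ?_)
  congr 1
  refine Finset.sum_congr rfl fun j _ => ?_
  rw [ww_succ_sub]

/-- The contribution of one coordinate `j`. -/
lemma coord_bound (hstep : ∀ a b, C.P a b ≠ 0 → ∑ j ∈ range n, |u b j - u a j| ≤ 1)
    (t : ℕ) {j : ℕ} (hj : j < n) :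
    ∑ x, ∑ z, C.pi x * (C.Q t x z * |u z j - u x j|)
        * ((ww u j z - ww u j x) ^ (2 : ℕ) + (ww u (j + 1) z - ww u (j + 1) x) ^ (2 : ℕ))
      ≤ ∑ s ∈ range t, ∑ a, ∑ b, C.P a b * |u b j - u a j|
          * (6 * (C.pi a * (C.BB u n s a + 1 + C.BB u n (t - 1 - s) b))) := by
  set W : S → S → ℝ := fun x z =>
    (ww u j z - ww u j x) ^ (2 : ℕ) + (ww u (j + 1) z - ww u (j + 1) x) ^ (2 : ℕ) with hW
  have hWnn : ∀ x z, 0 ≤ W x z := fun x z => by
    simp only [hW]; positivity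
  have h1 : ∑ x, ∑ z, C.pi x * (C.Q t x z * |u z j - u x j|) * W x z
      ≤ ∑ x, ∑ z, ∑ s ∈ range t, ∑ a, ∑ b, C.pi x * (C.Q s x a * C.P a b * C.Q (t - 1 - s) b z
          * |u b j - u a j|) * W x z := by
    refine Finset.sum_le_sum fun x _ => Finset.sum_le_sum fun z _ => ?_
    have hb := C.bridge (fun y => u y j) t x z
    have : C.pi x * (C.Q t x z * |u z j - u x j|) * W x z
        ≤ C.pi x * (∑ s ∈ range t, ∑ a, ∑ b, C.Q s x a * C.P a b * C.Q (t - 1 - s) b z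
          * |u b j - u a j|) * W x z :=
      mul_le_mul_of_nonneg_right (mul_le_mul_of_nonneg_left hb (C.pi_nonneg x)) (hWnn x z)
    refine this.trans (le_of_eq ?_)
    simp only [Finset.mul_sum, Finset.sum_mul]
  refine h1.trans ?_
  rw [sum2_comm]
  refine Finset.sum_le_sum fun s _ => ?_
  rw [sum2_comm]
  refine Finset.sum_le_sum fun a _ => ?_
  rw [sum2_comm]
  refine Finset.sum_le_sum fun b _ => ?_
  by_cases hP : C.P a b = 0
  · simp [hP]
  · have e : ∑ x, ∑ z, C.pi x * (C.Q s x a * C.P a b * C.Q (t - 1 - s) b z * |u b j - u a j|) * W x z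
        = C.P a b * |u b j - u a j|
          * (∑ x, ∑ z, C.pi x * C.Q s x a * C.Q (t - 1 - s) b z * (ww u j z - ww u j x) ^ (2 : ℕ)
            + ∑ x, ∑ z, C.pi x * C.Q s x a * C.Q (t - 1 - s) b z
                * (ww u (j + 1) z - ww u (j + 1) x) ^ (2 : ℕ)) := by
      rw [← Finset.sum_add_distrib, Finset.mul_sum]
      refine Finset.sum_congr rfl fun x _ => ?_
      rw [← Finset.sum_add_distrib, Finset.mul_sum]
      refine Finset.sum_congr rfl fun z _ => ?_
      simp only [hW]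
      ring
    rw [e]
    refine mul_le_mul_of_nonneg_left ?_ (mul_nonneg (C.P_nonneg a b) (abs_nonneg _))
    have h2 := C.weight_le u hstep (k := j) hj.le s (t - 1 - s) a b hP
    have h3 := C.weight_le u hstep (k := j + 1) hj s (t - 1 - s) a b hP
    linarith

/-- Sum over all coordinates. -/
lemma HH_moment_le (hstep : ∀ a b, C.P a b ≠ 0 → ∑ j ∈ range n, |u b j - u a j| ≤ 1) (t : ℕ) :
    ∑ x, ∑ z, C.pi x * C.Q t x z * HH u n x z ^ (3 : ℕ)
      ≤ 9 * ∑ s ∈ range t, (∑ a, C.pi a * C.BB u n s a + 1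
          + ∑ b, C.pi b * C.BB u n (t - 1 - s) b) := by
  have hw : ∀ x z, 0 ≤ C.pi x * C.Q t x z := fun x z =>
    mul_nonneg (C.pi_nonneg x) (C.Q_nonneg _ _ _)
  have h1 : ∑ x, ∑ z, C.pi x * C.Q t x z * HH u n x z ^ (3 : ℕ)
      ≤ (3 / 2) * ∑ j ∈ range n, ∑ x, ∑ z, C.pi x * (C.Q t x z * |u z j - u x j|)
        * ((ww u j z - ww u j x) ^ (2 : ℕ) + (ww u (j + 1) z - ww u (j + 1) x) ^ (2 : ℕ)) := by
    calc ∑ x, ∑ z, C.pi x * C.Q t x z * HH u n x z ^ (3 : ℕ)
        ≤ ∑ x, ∑ z, C.pi x * C.Q t x z * ((3 / 2) * ∑ j ∈ range n, |u z j - u x j|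
          * ((ww u j z - ww u j x) ^ (2 : ℕ) + (ww u (j + 1) z - ww u (j + 1) x) ^ (2 : ℕ))) :=
          Finset.sum_le_sum fun x _ => Finset.sum_le_sum fun z _ =>
            mul_le_mul_of_nonneg_left (HH_cube_le u x z) (hw x z)
      _ = ∑ x, ∑ z, ∑ j ∈ range n, (3 / 2) * (C.pi x * (C.Q t x z * |u z j - u x j|)
        * ((ww u j z - ww u j x) ^ (2 : ℕ) + (ww u (j + 1) z - ww u (j + 1) x) ^ (2 : ℕ))) := by
          refine Finset.sum_congr rfl fun x _ => Finset.sum_congr rfl fun z _ => ?_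
          rw [Finset.mul_sum, Finset.mul_sum]
          refine Finset.sum_congr rfl fun j _ => ?_
          ring
      _ = ∑ j ∈ range n, ∑ x, ∑ z, (3 / 2) * (C.pi x * (C.Q t x z * |u z j - u x j|)
        * ((ww u j z - ww u j x) ^ (2 : ℕ) + (ww u (j + 1) z - ww u (j + 1) x) ^ (2 : ℕ))) :=
          sum2_comm _ _ _ _
      _ = _ := by
          simp only [Finset.mul_sum]
  refine h1.trans ?_
  have h2 : ∑ j ∈ range n, ∑ x, ∑ z, C.pi x * (C.Q t x z * |u z j - u x j|)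
        * ((ww u j z - ww u j x) ^ (2 : ℕ) + (ww u (j + 1) z - ww u (j + 1) x) ^ (2 : ℕ))
      ≤ ∑ j ∈ range n, ∑ s ∈ range t, ∑ a, ∑ b, C.P a b * |u b j - u a j|
          * (6 * (C.pi a * (C.BB u n s a + 1 + C.BB u n (t - 1 - s) b))) :=
    Finset.sum_le_sum fun j hj => C.coord_bound u hstep t (Finset.mem_range.mp hj)
  have h3 : ∑ j ∈ range n, ∑ s ∈ range t, ∑ a, ∑ b, C.P a b * |u b j - u a j|
        * (6 * (C.pi a * (C.BB u n s a + 1 + C.BB u n (t - 1 - s) b)))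
      ≤ ∑ s ∈ range t, ∑ a, ∑ b, C.P a b
        * (6 * (C.pi a * (C.BB u n s a + 1 + C.BB u n (t - 1 - s) b))) := by
    rw [Finset.sum_comm]
    refine Finset.sum_le_sum fun s _ => ?_
    rw [Finset.sum_comm]
    refine Finset.sum_le_sum fun a _ => ?_
    rw [Finset.sum_comm]
    refine Finset.sum_le_sum fun b _ => ?_
    by_cases hP : C.P a b = 0
    · simp [hP]
    · have hB : 0 ≤ 6 * (C.pi a * (C.BB u n s a + 1 + C.BB u n (t - 1 - s) b)) := by
        have b1 := C.BB_nonneg u (n := n) s a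
        have b2 := C.BB_nonneg u (n := n) (t - 1 - s) b
        have b3 := C.pi_nonneg a
        have b4 : 0 ≤ C.BB u n s a + 1 + C.BB u n (t - 1 - s) b := by linarith
        positivity
      have e : ∑ j ∈ range n, C.P a b * |u b j - u a j|
            * (6 * (C.pi a * (C.BB u n s a + 1 + C.BB u n (t - 1 - s) b)))
          = (∑ j ∈ range n, |u b j - u a j|) * (C.P a b
            * (6 * (C.pi a * (C.BB u n s a + 1 + C.BB u n (t - 1 - s) b)))) := by
        rw [Finset.sum_mul]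
        exact Finset.sum_congr rfl fun j _ => by ring
      rw [e]
      have hP2 : 0 ≤ C.P a b * (6 * (C.pi a * (C.BB u n s a + 1 + C.BB u n (t - 1 - s) b))) :=
        mul_nonneg (C.P_nonneg a b) hB
      calc _ ≤ 1 * (C.P a b * (6 * (C.pi a * (C.BB u n s a + 1 + C.BB u n (t - 1 - s) b)))) :=
            mul_le_mul_of_nonneg_right (hstep a b hP) hP2
        _ = _ := one_mul _
  have h4 : ∀ s s' : ℕ, ∑ a, ∑ b, C.P a b
        * (6 * (C.pi a * (C.BB u n s a + 1 + C.BB u n s' b)))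
      = 6 * (∑ a, C.pi a * C.BB u n s a + 1 + ∑ b, C.pi b * C.BB u n s' b) := by
    intro s s'
    have e1 : ∑ a, ∑ b, C.P a b * (C.pi a * C.BB u n s a) = ∑ a, C.pi a * C.BB u n s a := by
      refine Finset.sum_congr rfl fun a _ => ?_
      rw [← Finset.sum_mul, C.P_sum, one_mul]
    have e2 : ∑ a, ∑ b, C.P a b * C.pi a = 1 := by
      have : ∀ a, ∑ b, C.P a b * C.pi a = C.pi a := fun a => by
        rw [← Finset.sum_mul, C.P_sum, one_mul]
      simp only [this, C.pi_sum]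
    have e3 : ∑ a, ∑ b, C.P a b * (C.pi a * C.BB u n s' b) = ∑ b, C.pi b * C.BB u n s' b := by
      rw [Finset.sum_comm]
      refine Finset.sum_congr rfl fun b _ => ?_
      rw [← C.pi_P b, Finset.sum_mul]
      exact Finset.sum_congr rfl fun a _ => by ring
    have e4 : 6 * (∑ a, C.pi a * C.BB u n s a + 1 + ∑ b, C.pi b * C.BB u n s' b)
        = 6 * (∑ a, ∑ b, C.P a b * (C.pi a * C.BB u n s a) + ∑ a, ∑ b, C.P a b * C.pi a
          + ∑ a, ∑ b, C.P a b * (C.pi a * C.BB u n s' b)) := by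
      rw [e1, e2, e3]
    rw [e4]
    rw [← Finset.sum_add_distrib, ← Finset.sum_add_distrib, Finset.mul_sum]
    refine Finset.sum_congr rfl fun a _ => ?_
    rw [← Finset.sum_add_distrib, ← Finset.sum_add_distrib, Finset.mul_sum]
    refine Finset.sum_congr rfl fun b _ => ?_
    ring
  simp only [h4] at h3
  have h5 : (3 / 2 : ℝ) * ∑ s ∈ range t, 6 * (∑ a, C.pi a * C.BB u n s a + 1
        + ∑ b, C.pi b * C.BB u n (t - 1 - s) b)
      = 9 * ∑ s ∈ range t, (∑ a, C.pi a * C.BB u n s a + 1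
        + ∑ b, C.pi b * C.BB u n (t - 1 - s) b) := by
    rw [← Finset.mul_sum]
    ring
  rw [← h5]
  exact mul_le_mul_of_nonneg_left (h2.trans h3) (by norm_num)

/-- **Theorem Sigma, third moment form.** -/
theorem HH_moment_final (hstep : ∀ a b, C.P a b ≠ 0 → ∑ j ∈ range n, |u b j - u a j| ≤ 1)
    {r t : ℕ} (hr : 1 ≤ r) (ht : 1 ≤ t) :
    ∑ x, ∑ z, C.pi x * C.Q t x z * HH u n x z ^ (3 : ℕ)
      ≤ 171 * (t : ℝ) ^ (2 : ℕ) * ((r : ℝ) ^ (3 : ℕ) + t / r) := by
  have hrpos : (1 : ℝ) ≤ r := by exact_mod_cast hr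
  have htpos : (1 : ℝ) ≤ t := by exact_mod_cast ht
  have hr0 : (0 : ℝ) < r := by linarith
  set eb : ℝ := 4 * (r : ℝ) ^ (3 : ℕ) + t * (2 / r) with heb
  have hebnn : 0 ≤ eb := by positivity
  have hB : ∀ l, l ≤ t → ∑ x, C.pi x * C.BB u n l x ≤ t * (1 + 2 * eb) := by
    intro l hl
    refine (C.mean_BB_le u hstep hr hl).trans ?_
    refine mul_le_mul_of_nonneg_right ?_ (by positivity)
    exact_mod_cast hl
  have h1 := C.HH_moment_le u hstep t
  have h2 : ∑ s ∈ range t, (∑ a, C.pi a * C.BB u n s a + 1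
        + ∑ b, C.pi b * C.BB u n (t - 1 - s) b)
      ≤ t * (t * (1 + 2 * eb) + 1 + t * (1 + 2 * eb)) := by
    calc _ ≤ ∑ s ∈ range t, (t * (1 + 2 * eb) + 1 + t * (1 + 2 * eb) : ℝ) := by
          refine Finset.sum_le_sum fun s hs => ?_
          have hs' := Finset.mem_range.mp hs
          have a1 := hB s hs'.le
          have a2 := hB (t - 1 - s) (by omega)
          linarith
      _ = _ := by simp; ring
  have hfin : 9 * ((t : ℝ) * (t * (1 + 2 * eb) + 1 + t * (1 + 2 * eb)))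
      ≤ 171 * (t : ℝ) ^ (2 : ℕ) * ((r : ℝ) ^ (3 : ℕ) + t / r) := by
    have hr3 : (1 : ℝ) ≤ (r : ℝ) ^ (3 : ℕ) := one_le_pow₀ hrpos
    have ht2 : (t : ℝ) ≤ (t : ℝ) ^ (2 : ℕ) := by nlinarith
    have e1 : 9 * ((t : ℝ) * (t * (1 + 2 * eb) + 1 + t * (1 + 2 * eb)))
        = 18 * (t : ℝ) ^ (2 : ℕ) + 144 * (t : ℝ) ^ (2 : ℕ) * (r : ℝ) ^ (3 : ℕ)
          + 72 * (t : ℝ) ^ (2 : ℕ) * (t / r) + 9 * t := by
      rw [heb]; field_simp; ring
    have e2 : 171 * (t : ℝ) ^ (2 : ℕ) * ((r : ℝ) ^ (3 : ℕ) + t / r)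
        = 171 * ((t : ℝ) ^ (2 : ℕ) * (r : ℝ) ^ (3 : ℕ)) + 171 * ((t : ℝ) ^ (2 : ℕ) * (t / r)) := by
      ring
    rw [e1, e2]
    have a1 : (t : ℝ) ^ (2 : ℕ) ≤ (t : ℝ) ^ (2 : ℕ) * (r : ℝ) ^ (3 : ℕ) := by
      have : 0 ≤ (t : ℝ) ^ (2 : ℕ) := by positivity
      nlinarith
    have a2 : 0 ≤ (t : ℝ) ^ (2 : ℕ) * (t / r) := by positivity
    linarith
  calc _ ≤ _ := h1
    _ ≤ 9 * ((t : ℝ) * (t * (1 + 2 * eb) + 1 + t * (1 + 2 * eb))) :=
        mul_le_mul_of_nonneg_left h2 (by norm_num)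
    _ ≤ _ := hfin

end Assemble

end RevChain

end Vale.Agent.Lib.P125
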