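import Vale.Agent.Lib.P125.Duality

/-!
# P125, Theorem Sigma: the smoothing estimate
-/

namespace Vale.Agent.Lib.P125

open Finset

/-- The partial sums of a coordinate family. -/
def ww {S : Type*} (u : S → ℕ → ℝ) (k : ℕ) (x : S) : ℝ := ∑ j ∈ range k, u x j

lemma ww_zero {S : Type*} (u : S → ℕ → ℝ) (x : S) : ww u 0 x = 0 := by simp [ww]

lemma ww_succ_sub {S : Type*} (u : S → ℕ → ℝ) (j : ℕ) (x z : S) :
    (ww u (j + 1) z - ww u (j + 1) x) - (ww u j z - ww u j x) = u z j - u x j := by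
  simp only [ww, Finset.sum_range_succ]
  ring

lemma sum_ite_lt_mul {n k : ℕ} (hk : k ≤ n) (c : ℝ) (f : ℕ → ℝ) :
    ∑ j ∈ range n, (if j < k then c else 0) * f j = c * ∑ j ∈ range k, f j := by
  have hf : (range n).filter (fun j => j < k) = range k := by
    ext j
    simp only [Finset.mem_filter, Finset.mem_range]
    omega
  simp only [ite_mul, zero_mul]
  rw [← Finset.sum_filter, hf, Finset.mul_sum]

namespace RevChain

variable {S : Type*} [Fintype S] [DecidableEq S] (C : RevChain S)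

lemma step_finset_sum {ι : Type*} (s : Finset ι) (w : ι → S → ℝ) (x : S) :
    C.step (fun y => ∑ i ∈ s, w i y) x = ∑ i ∈ s, C.step (w i) x := by
  simp only [step, Finset.mul_sum]
  rw [Finset.sum_comm]

section Field

variable (u : S → ℕ → ℝ)

/-- The field `(I - P) A_R` applied to the coordinate `ww u k`. -/
noncomputable def dd (R k : ℕ) (z : S) : ℝ :=
  C.A R (ww u k) z - C.step (C.A R (ww u k)) z

/-- The field `(I - P) A_R` applied to the `j`-th increment. -/
noncomputable def dj (R j : ℕ) (z : S) : ℝ :=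
  C.A R (fun x => u x j) z - C.step (C.A R (fun x => u x j)) z

lemma dd_eq_sum (R k : ℕ) (z : S) : C.dd u R k z = ∑ j ∈ range k, C.dj u R j z := by
  unfold dd dj
  rw [Finset.sum_sub_distrib]
  have h1 : ∀ x, C.A R (ww u k) x = ∑ j ∈ range k, C.A R (fun x => u x j) x := fun x => by
    have := C.A_finset_sum (range k) R (fun j x => u x j) x
    exact this
  have h2 : C.step (C.A R (ww u k)) z = ∑ j ∈ range k, C.step (C.A R (fun x => u x j)) z := by
    rw [C.step_congr h1 z]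
    exact C.step_finset_sum (range k) (fun j x => C.A R (fun x => u x j) x) z
  rw [h1, h2]

lemma pairing_dj (kk : S → ℕ) (cc : S → ℝ) (R j : ℕ) :
    ∑ z, C.pi z * (G kk cc j z * C.dj u R j z)
      = (1 / 2) * ∑ a, ∑ b, C.pi a * C.P a b * (C.DD kk cc R a b j * (u b j - u a j)) := by
  have h1 : ∀ z, C.dj u R j z = C.A R (fun x => u x j - C.step (fun x => u x j) x) z := fun z => by
    unfold dj
    rw [C.step_A_comm]
    rw [C.A_sub]
  calc ∑ z, C.pi z * (G kk cc j z * C.dj u R j z)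
      = ∑ z, C.pi z * G kk cc j z * C.A R (fun x => u x j - C.step (fun x => u x j) x) z := by
        refine Finset.sum_congr rfl fun z _ => ?_
        rw [h1]; ring
    _ = ∑ z, C.pi z * C.A R (G kk cc j) z * (u z j - C.step (fun x => u x j) z) :=
        C.A_adjoint R _ _
    _ = (1 / 2) * ∑ a, ∑ b, C.pi a * C.P a b * ((C.A R (G kk cc j) b - C.A R (G kk cc j) a)
          * (u b j - u a j)) := C.dirichlet (C.A R (G kk cc j)) (fun x => u x j)
    _ = _ := rfl

/-- The duality identity. -/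
lemma dual_identity {n : ℕ} {kk : S → ℕ} (cc : S → ℝ) (hkk : ∀ y, kk y ≤ n) (R : ℕ) :
    ∑ z, C.pi z * (cc z * C.dd u R (kk z) z)
      = (1 / 2) * ∑ a, ∑ b, C.pi a * C.P a b
          * ∑ j ∈ range n, C.DD kk cc R a b j * (u b j - u a j) := by
  have h1 : ∀ z, cc z * C.dd u R (kk z) z = ∑ j ∈ range n, G kk cc j z * C.dj u R j z := fun z => by
    rw [C.dd_eq_sum]
    unfold G
    rw [sum_ite_lt_mul (hkk z)]
  calc ∑ z, C.pi z * (cc z * C.dd u R (kk z) z)
      = ∑ j ∈ range n, ∑ z, C.pi z * (G kk cc j z * C.dj u R j z) := by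
        simp only [h1, Finset.mul_sum]
        rw [Finset.sum_comm]
    _ = ∑ j ∈ range n, (1 / 2) * ∑ a, ∑ b, C.pi a * C.P a b
          * (C.DD kk cc R a b j * (u b j - u a j)) :=
        Finset.sum_congr rfl fun j _ => C.pairing_dj u kk cc R j
    _ = _ := by
        rw [← Finset.mul_sum]
        congr 1
        rw [Finset.sum_comm]
        refine Finset.sum_congr rfl fun a _ => ?_
        rw [Finset.sum_comm]
        refine Finset.sum_congr rfl fun b _ => ?_
        rw [Finset.mul_sum]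

/-- Jensen for the edge measure. -/
lemma edge_jensen (M : S → S → ℝ) (hM : ∀ a b, 0 ≤ M a b) :
    (∑ a, ∑ b, C.pi a * C.P a b * M a b) ^ (3 : ℕ)
      ≤ ∑ a, ∑ b, C.pi a * C.P a b * M a b ^ (3 : ℕ) := by
  have hw : ∑ p : S × S, C.pi p.1 * C.P p.1 p.2 = 1 := by
    rw [Fintype.sum_prod_type]
    simp only [← Finset.mul_sum, C.P_sum, mul_one, C.pi_sum]
  have := Real.pow_arith_mean_le_arith_mean_pow (Finset.univ : Finset (S × S))
    (fun p => C.pi p.1 * C.P p.1 p.2) (fun p => M p.1 p.2)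
    (fun p _ => mul_nonneg (C.pi_nonneg _) (C.P_nonneg _ _)) hw (fun p _ => hM _ _) 3
  rw [Fintype.sum_prod_type, Fintype.sum_prod_type] at this
  exact this

/-- The pointwise maximum of the field. -/
noncomputable def dmax (n R : ℕ) (z : S) : ℝ :=
  (range (n + 1)).sup' nonempty_range_add_one (fun k => |C.dd u R k z|)

lemma abs_dd_le_dmax {n k : ℕ} (hk : k ≤ n) (R : ℕ) (z : S) : |C.dd u R k z| ≤ C.dmax u n R z := by
  unfold dmax
  exact Finset.le_sup' (fun k => |C.dd u R k z|) (Finset.mem_range.mpr (by omega))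

lemma dmax_nonneg (n R : ℕ) (z : S) : 0 ≤ C.dmax u n R z :=
  (abs_nonneg _).trans (C.abs_dd_le_dmax u (Nat.zero_le n) R z)

variable {n : ℕ}

lemma exists_selector (R : ℕ) : ∃ (kk : S → ℕ) (cc : S → ℝ), (∀ y, kk y ≤ n) ∧ (∀ y, |cc y| ≤ 1) ∧
    ∀ z, C.dmax u n R z = cc z * C.dd u R (kk z) z := by
  have h : ∀ z, ∃ k, k ≤ n ∧ C.dmax u n R z = |C.dd u R k z| := fun z => by
    obtain ⟨m, hm, hmax⟩ := Finset.exists_mem_eq_sup' (s := range (n + 1)) nonempty_range_add_one
      (fun m => |C.dd u R m z|)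
    refine ⟨m, ?_, hmax⟩
    have := Finset.mem_range.mp hm
    omega
  choose kk hk1 hk2 using h
  refine ⟨kk, fun z => if 0 ≤ C.dd u R (kk z) z then 1 else -1, hk1, ?_, ?_⟩
  · intro y
    dsimp only
    split_ifs <;> simp
  · intro z
    rw [hk2 z]
    dsimp only
    split_ifs with h0
    · rw [abs_of_nonneg h0, one_mul]
    · rw [abs_of_neg (not_le.mp h0)]; ring

/-- The field bound. -/
theorem dmax_bound (hstep : ∀ a b, C.P a b ≠ 0 → ∑ j ∈ range n, |u b j - u a j| ≤ 1)
    {r : ℕ} (hr : 1 ≤ r) :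
    ∑ z, C.pi z * C.dmax u n (r ^ (3 : ℕ)) z ≤ 2 / r := by
  have hrpos : (0 : ℝ) < r := by exact_mod_cast hr
  have hR : 1 ≤ r ^ (3 : ℕ) := Nat.one_le_pow _ _ hr
  obtain ⟨kk, cc, hkk, hcc, hsel⟩ := C.exists_selector u (n := n) (r ^ (3 : ℕ))
  set R := r ^ (3 : ℕ) with hRdef
  have h1 : ∑ z, C.pi z * C.dmax u n R z
      = (1 / 2) * ∑ a, ∑ b, C.pi a * C.P a b
          * ∑ j ∈ range n, C.DD kk cc R a b j * (u b j - u a j) := by
    rw [← C.dual_identity u cc hkk R]
    exact Finset.sum_congr rfl fun z _ => by rw [hsel]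
  have h2 : ∀ a b, C.pi a * C.P a b * ∑ j ∈ range n, C.DD kk cc R a b j * (u b j - u a j)
      ≤ C.pi a * C.P a b * C.MM kk cc n R a b := by
    intro a b
    by_cases hP : C.P a b = 0
    · simp [hP]
    · refine mul_le_mul_of_nonneg_left ?_ (mul_nonneg (C.pi_nonneg a) (C.P_nonneg a b))
      have hM := C.MM_nonneg (kk := kk) (cc := cc) n R a b
      calc ∑ j ∈ range n, C.DD kk cc R a b j * (u b j - u a j)
          ≤ ∑ j ∈ range n, C.MM kk cc n R a b * |u b j - u a j| := by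
            refine Finset.sum_le_sum fun j hj => ?_
            have hj' : j ≤ n := (Finset.mem_range.mp hj).le
            calc C.DD kk cc R a b j * (u b j - u a j)
                ≤ |C.DD kk cc R a b j * (u b j - u a j)| := le_abs_self _
              _ = |C.DD kk cc R a b j| * |u b j - u a j| := abs_mul _ _
              _ ≤ _ := mul_le_mul_of_nonneg_right (C.abs_DD_le_MM R a b hj') (abs_nonneg _)
        _ = C.MM kk cc n R a b * ∑ j ∈ range n, |u b j - u a j| := by rw [Finset.mul_sum]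
        _ ≤ C.MM kk cc n R a b * 1 := mul_le_mul_of_nonneg_left (hstep a b hP) hM
        _ = _ := mul_one _
  have h3 := C.MM_cube_sum (kk := kk) (cc := cc) (n := n) hR hkk hcc
  have h4 := C.edge_jensen (C.MM kk cc n R) (fun a b => C.MM_nonneg n R a b)
  set X := ∑ a, ∑ b, C.pi a * C.P a b * C.MM kk cc n R a b with hX
  have hXnn : 0 ≤ X := Finset.sum_nonneg fun a _ => Finset.sum_nonneg fun b _ =>
    mul_nonneg (mul_nonneg (C.pi_nonneg a) (C.P_nonneg a b)) (C.MM_nonneg n R a b)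
  have h5 : X ^ (3 : ℕ) ≤ 36 / R := h4.trans h3
  have hRcast : (R : ℝ) = (r : ℝ) ^ (3 : ℕ) := by rw [hRdef]; push_cast; ring
  have h6 : X ≤ 4 / r := by
    by_contra hcon
    push Not at hcon
    have h7 : (4 / (r : ℝ)) ^ (3 : ℕ) < X ^ (3 : ℕ) :=
      pow_lt_pow_left₀ hcon (by positivity) (by norm_num)
    have h8 : (4 / (r : ℝ)) ^ (3 : ℕ) = 64 / (r : ℝ) ^ (3 : ℕ) := by
      rw [div_pow]; norm_num
    have h9 : (36 : ℝ) / (r : ℝ) ^ (3 : ℕ) ≤ 64 / (r : ℝ) ^ (3 : ℕ) := by
      apply div_le_div_of_nonneg_right (by norm_num) (by positivity)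
    rw [hRcast] at h5
    linarith
  rw [h1]
  have h10 : ∑ a, ∑ b, C.pi a * C.P a b * ∑ j ∈ range n, C.DD kk cc R a b j * (u b j - u a j) ≤ X :=
    Finset.sum_le_sum fun a _ => Finset.sum_le_sum fun b _ => h2 a b
  calc (1 / 2) * ∑ a, ∑ b, C.pi a * C.P a b * ∑ j ∈ range n, C.DD kk cc R a b j * (u b j - u a j)
      ≤ (1 / 2) * (4 / r) := by
        refine mul_le_mul_of_nonneg_left (h10.trans h6) (by norm_num)
    _ = 2 / r := by ring

/-! ### Moving from the averaged field to the true increments -/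

lemma abs_step_sub_le {w : S → ℝ} (hw : ∀ a b, C.P a b ≠ 0 → |w b - w a| ≤ 1) (x : S) :
    |C.step w x - w x| ≤ 1 := by
  have e : C.step w x - w x = ∑ y, C.P x y * (w y - w x) := by
    simp only [step, mul_sub, Finset.sum_sub_distrib, ← Finset.sum_mul, C.P_sum, one_mul]
  rw [e]
  refine (Finset.abs_sum_le_sum_abs _ _).trans ?_
  calc ∑ y, |C.P x y * (w y - w x)| ≤ ∑ y, C.P x y := by
        refine Finset.sum_le_sum fun y _ => ?_
        rw [abs_mul, abs_of_nonneg (C.P_nonneg x y)]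
        by_cases hP : C.P x y = 0
        · simp [hP]
        · calc C.P x y * |w y - w x| ≤ C.P x y * 1 :=
                mul_le_mul_of_nonneg_left (hw x y hP) (C.P_nonneg x y)
            _ = C.P x y := mul_one _
    _ = 1 := C.P_sum x

lemma op_sub_eq_sum (L : ℕ) (v : S → ℝ) (x : S) :
    C.op L v x - v x = ∑ i ∈ range L, C.op i (fun z => C.step v z - v z) x := by
  induction L with
  | zero => simp [op_zero]
  | succ L ih =>
    rw [Finset.sum_range_succ, ← ih, op_succ', op_sub]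
    ring

lemma abs_op_sub_le {w : S → ℝ} (hw : ∀ a b, C.P a b ≠ 0 → |w b - w a| ≤ 1) (l : ℕ) (x : S) :
    |C.op l w x - w x| ≤ l := by
  rw [op_sub_eq_sum]
  refine (Finset.abs_sum_le_sum_abs _ _).trans ?_
  calc ∑ i ∈ range l, |C.op i (fun z => C.step w z - w z) x| ≤ ∑ i ∈ range l, (1 : ℝ) :=
        Finset.sum_le_sum fun i _ =>
          C.abs_op_le_of_bound i (fun z => C.abs_step_sub_le hw z) x
    _ = l := by simp

lemma abs_A_sub_le {w : S → ℝ} (hw : ∀ a b, C.P a b ≠ 0 → |w b - w a| ≤ 1) {R : ℕ} (hR : 1 ≤ R)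
    (x : S) : |C.A R w x - w x| ≤ 2 * R := by
  have hRpos : (0 : ℝ) < R := by exact_mod_cast hR
  have e : C.A R w x - w x = (1 / (R : ℝ)) * ∑ i ∈ range R, (C.op (R + i) w x - w x) := by
    rw [Finset.sum_sub_distrib, Finset.sum_const, card_range, nsmul_eq_mul, mul_sub]
    unfold A
    field_simp
  rw [e, abs_mul, abs_of_nonneg (by positivity : (0 : ℝ) ≤ 1 / (R : ℝ))]
  have h1 : |∑ i ∈ range R, (C.op (R + i) w x - w x)| ≤ R * (2 * R) := by
    refine (Finset.abs_sum_le_sum_abs _ _).trans ?_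
    calc ∑ i ∈ range R, |C.op (R + i) w x - w x| ≤ ∑ i ∈ range R, (2 * (R : ℝ)) := by
          refine Finset.sum_le_sum fun i hi => ?_
          refine (C.abs_op_sub_le hw (R + i) x).trans ?_
          have hi' : i < R := Finset.mem_range.mp hi
          have : ((R + i : ℕ) : ℝ) ≤ ((2 * R : ℕ) : ℝ) := by
            exact_mod_cast (by omega : R + i ≤ 2 * R)
          simpa using this
      _ = R * (2 * R) := by simp
  calc 1 / (R : ℝ) * |∑ i ∈ range R, (C.op (R + i) w x - w x)|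
      ≤ 1 / (R : ℝ) * (R * (2 * R)) := mul_le_mul_of_nonneg_left h1 (by positivity)
    _ = 2 * R := by field_simp

/-- The step bound passes to all coordinates. -/
lemma abs_ww_step_le (hstep : ∀ a b, C.P a b ≠ 0 → ∑ j ∈ range n, |u b j - u a j| ≤ 1)
    {k : ℕ} (hk : k ≤ n) (a b : S) (hP : C.P a b ≠ 0) : |ww u k b - ww u k a| ≤ 1 := by
  unfold ww
  rw [← Finset.sum_sub_distrib]
  refine (Finset.abs_sum_le_sum_abs _ _).trans ?_
  refine le_trans ?_ (hstep a b hP)
  refine Finset.sum_le_sum_of_subset_of_nonneg ?_ (fun _ _ _ => abs_nonneg _)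
  intro j hj
  simp only [Finset.mem_range] at hj ⊢
  omega

/-- The uniform drift bound for coordinates. -/
lemma abs_op_ww_sub_le (hstep : ∀ a b, C.P a b ≠ 0 → ∑ j ∈ range n, |u b j - u a j| ≤ 1)
    {k : ℕ} (hk : k ≤ n) {R : ℕ} (hR : 1 ≤ R) (L : ℕ) (x : S) :
    |C.op L (ww u k) x - ww u k x|
      ≤ 4 * R + ∑ i ∈ range L, C.op i (C.dmax u n R) x := by
  have hw := C.abs_ww_step_le u hstep hk
  set w := ww u k with hwdef
  set v := C.A R w with hvdef
  have e : C.op L w x - w x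
      = C.op L (fun y => w y - v y) x + (C.op L v x - v x) + (v x - w x) := by
    rw [C.op_sub]; ring
  have h1 : |C.op L (fun y => w y - v y) x| ≤ 2 * R := by
    refine C.abs_op_le_of_bound L (fun y => ?_) x
    rw [abs_sub_comm]
    exact C.abs_A_sub_le hw hR y
  have h2 : |v x - w x| ≤ 2 * R := C.abs_A_sub_le hw hR x
  have h3 : |C.op L v x - v x| ≤ ∑ i ∈ range L, C.op i (C.dmax u n R) x := by
    rw [C.op_sub_eq_sum]
    refine (Finset.abs_sum_le_sum_abs _ _).trans ?_
    refine Finset.sum_le_sum fun i _ => ?_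
    refine (C.abs_op_le i _ x).trans ?_
    refine C.op_mono i (fun z => ?_) x
    have := C.abs_dd_le_dmax u hk R z
    rw [abs_sub_comm]
    exact this
  rw [e]
  calc |C.op L (fun y => w y - v y) x + (C.op L v x - v x) + (v x - w x)|
      ≤ |C.op L (fun y => w y - v y) x| + |C.op L v x - v x| + |v x - w x| := abs_add_three _ _ _
    _ ≤ _ := by linarith

/-- The pointwise drift in the sup norm. -/
noncomputable def ee (n L : ℕ) (x : S) : ℝ :=
  (range (n + 1)).sup' nonempty_range_add_one (fun k => |C.op L (ww u k) x - ww u k x|)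

lemma abs_op_sub_le_ee {k : ℕ} (hk : k ≤ n) (L : ℕ) (x : S) :
    |C.op L (ww u k) x - ww u k x| ≤ C.ee u n L x := by
  unfold ee
  exact Finset.le_sup' (fun k => |C.op L (ww u k) x - ww u k x|) (Finset.mem_range.mpr (by omega))

lemma ee_nonneg (L : ℕ) (x : S) : 0 ≤ C.ee u n L x :=
  (abs_nonneg _).trans (C.abs_op_sub_le_ee u (Nat.zero_le n) L x)

/-- The smoothing estimate: the mean sup-norm drift after `L` steps. -/
theorem ee_mean_le (hstep : ∀ a b, C.P a b ≠ 0 → ∑ j ∈ range n, |u b j - u a j| ≤ 1)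
    {r : ℕ} (hr : 1 ≤ r) (L : ℕ) :
    ∑ x, C.pi x * C.ee u n L x ≤ 4 * (r : ℝ) ^ (3 : ℕ) + L * (2 / r) := by
  have hR : 1 ≤ r ^ (3 : ℕ) := Nat.one_le_pow _ _ hr
  have hpt : ∀ x, C.ee u n L x
      ≤ 4 * ((r ^ (3 : ℕ) : ℕ) : ℝ) + ∑ i ∈ range L, C.op i (C.dmax u n (r ^ (3 : ℕ))) x := by
    intro x
    unfold ee
    refine Finset.sup'_le _ _ fun k hk => ?_
    exact C.abs_op_ww_sub_le u hstep (by have := Finset.mem_range.mp hk; omega) hR L x
  have h1 : ∑ x, C.pi x * C.ee u n L x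
      ≤ ∑ x, C.pi x * (4 * ((r ^ (3 : ℕ) : ℕ) : ℝ)
          + ∑ i ∈ range L, C.op i (C.dmax u n (r ^ (3 : ℕ))) x) :=
    Finset.sum_le_sum fun x _ => mul_le_mul_of_nonneg_left (hpt x) (C.pi_nonneg x)
  refine h1.trans ?_
  simp only [mul_add, Finset.sum_add_distrib]
  have h2 : ∑ x, C.pi x * (4 * ((r ^ (3 : ℕ) : ℕ) : ℝ)) = 4 * (r : ℝ) ^ (3 : ℕ) := by
    rw [← Finset.sum_mul, C.pi_sum]
    push_cast
    ring
  have h3 : ∑ x, C.pi x * ∑ i ∈ range L, C.op i (C.dmax u n (r ^ (3 : ℕ))) x ≤ L * (2 / r) := by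
    simp only [Finset.mul_sum]
    rw [Finset.sum_comm]
    calc ∑ i ∈ range L, ∑ x, C.pi x * C.op i (C.dmax u n (r ^ (3 : ℕ))) x
        ≤ ∑ i ∈ range L, (2 / r : ℝ) := by
          refine Finset.sum_le_sum fun i _ => ?_
          rw [C.pi_op]
          exact C.dmax_bound u hstep hr
      _ = L * (2 / r) := by simp
  rw [h2]
  linarith

end Field

end RevChain

end Vale.Agent.Lib.P125
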